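import Vale.Agent.P092.H350.ElBasic

/-!
Reduction of `SL_{n+1}(ℤ)` to `SL_n(ℤ)` by boundedly many elementary operations.
-/

namespace Vale.Agent.P092.H350

open Matrix

/-- If `x, y, d` have no common prime factor and `d ≠ 0`, then `x + t y` is coprime to `d` for
some `t`. -/
theorem exists_coprime_add {x y d : ℤ} (hd : d ≠ 0)
    (h : ∀ q : ℕ, q.Prime → (q : ℤ) ∣ x → (q : ℤ) ∣ y → ¬ (q : ℤ) ∣ d) :
    ∃ t : ℤ, IsCoprime (x + t * y) d := by
  classical
  let s : Finset ℕ := d.natAbs.primeFactors.filter (fun q : ℕ => ¬ (q : ℤ) ∣ x)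
  let T : ℕ := ∏ q ∈ s, q
  refine ⟨(T : ℤ), ?_⟩
  rw [Int.isCoprime_iff_gcd_eq_one]
  by_contra hne
  obtain ⟨q, hq, hqd⟩ := Nat.exists_prime_and_dvd hne
  have h1 : (q : ℤ) ∣ x + T * y := (Int.natCast_dvd_natCast.mpr hqd).trans (Int.gcd_dvd_left _ _)
  have h2 : (q : ℤ) ∣ d := (Int.natCast_dvd_natCast.mpr hqd).trans (Int.gcd_dvd_right _ _)
  have hmem : q ∈ d.natAbs.primeFactors := by
    rw [Nat.mem_primeFactors]
    exact ⟨hq, Int.natCast_dvd.mp h2, by simpa using hd⟩
  by_cases hx : (q : ℤ) ∣ x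
  · have hTy : (q : ℤ) ∣ T * y := (dvd_add_right hx).mp h1
    rcases (Nat.prime_iff_prime_int.mp hq).dvd_or_dvd hTy with hT | hy
    · have hT' : q ∣ T := Int.natCast_dvd_natCast.mp hT
      rw [Prime.dvd_finsetProd_iff hq.prime] at hT'
      obtain ⟨r, hr, hqr⟩ := hT'
      have hr' := (Finset.mem_filter.mp hr)
      have hrp := Nat.prime_of_mem_primeFactors hr'.1
      have : q = r := (Nat.prime_dvd_prime_iff_eq hq hrp).mp hqr
      exact hr'.2 (this ▸ hx)
    · exact h q hq hx hy h2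
  · have hT : (q : ℤ) ∣ T := by
      apply Int.natCast_dvd_natCast.mpr
      exact Finset.dvd_prod_of_mem _ (Finset.mem_filter.mpr ⟨hmem, hx⟩)
    exact hx ((dvd_add_left (hT.mul_right y)).mp h1)

variable {ι : Type} [Fintype ι] [DecidableEq ι]

/-- the column `c` restricted to `s` -/
def colOn (c : Matrix ι Unit ℤ) (s : Finset ι) : Matrix ι Unit ℤ :=
  Matrix.of fun i j => if i ∈ s then c i j else 0

/-- upper unipotent block matrix as product of `card ι` elementary matrices -/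
theorem El.upper (c : Matrix ι Unit ℤ) :
    El (Fintype.card ι) (fromBlocks 1 c 0 1 : Matrix (ι ⊕ Unit) (ι ⊕ Unit) ℤ) := by
  have key : ∀ s : Finset ι, El s.card (fromBlocks 1 (colOn c s) 0 1 :
      Matrix (ι ⊕ Unit) (ι ⊕ Unit) ℤ) := by
    intro s
    induction s using Finset.induction_on with
    | empty =>
      have : (fromBlocks 1 (colOn c ∅) 0 1 : Matrix (ι ⊕ Unit) (ι ⊕ Unit) ℤ) = 1 := by
        rw [← fromBlocks_one]
        congr 1
      rw [this]
      exact El.one _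
    | insert a s ha ih =>
      rw [Finset.card_insert_of_notMem ha]
      have h := ih.mul (El.transvection (ι := ι ⊕ Unit) (i := Sum.inl a) (j := Sum.inr ())
        (by simp) (c a ()))
      convert h using 1
      have ht : Matrix.transvection (Sum.inl a : ι ⊕ Unit) (Sum.inr ()) (c a ()) =
          fromBlocks 1 (colOn c {a}) 0 1 := by
        ext i j
        rcases i with i | i <;> rcases j with j | j
        · simp [Matrix.transvection, Matrix.single, Matrix.one_apply]
        · by_cases hi : i = a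
          · subst hi; simp [Matrix.transvection, Matrix.single, colOn]
          · have hi' : ¬ a = i := fun h => hi h.symm
            simp [Matrix.transvection, Matrix.single, hi, hi', colOn]
        · simp [Matrix.transvection, Matrix.single]
        · simp [Matrix.transvection, Matrix.single]
      rw [ht, fromBlocks_multiply]
      congr 1
      · simp
      · ext i j
        by_cases hi : i = a
        · subst hi; simp [ha, colOn]
        · simp [hi, colOn]
      · simp
      · simp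
  have := key Finset.univ
  have h2 : colOn c Finset.univ = c := by ext i j; simp [colOn]
  rwa [h2, Finset.card_univ] at this

/-- lower unipotent block matrix -/
theorem El.lower (c : Matrix Unit ι ℤ) :
    El (Fintype.card ι) (fromBlocks 1 0 c 1 : Matrix (ι ⊕ Unit) (ι ⊕ Unit) ℤ) := by
  have h := (El.upper (cᵀ)).transpose
  rw [fromBlocks_transpose] at h
  simpa using h

/-- If the last row of `g` is unimodular already without the last entry. -/
theorem reduce_one (g : Matrix (ι ⊕ Unit) (ι ⊕ Unit) ℤ) (hg : g.det = 1)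
    (w : ι → ℤ) (hw : ∑ i, g (Sum.inr ()) (Sum.inl i) * w i = 1) :
    ∃ g' : Matrix ι ι ℤ, g'.det = 1 ∧ ∃ e, El (Fintype.card ι) e ∧ ∃ f,
      El (Fintype.card ι + Fintype.card ι) f ∧ g * f = e * fromBlocks g' 0 0 1 := by
  set z : ℤ := g (Sum.inr ()) (Sum.inr ()) with hz
  let c : Matrix ι Unit ℤ := fun i _ => w i * (1 - z)
  let g1 := g * fromBlocks 1 c 0 1
  have hg1 : g1 (Sum.inr ()) (Sum.inr ()) = 1 := by
    show (g * fromBlocks 1 c 0 1 : Matrix (ι ⊕ Unit) (ι ⊕ Unit) ℤ) (Sum.inr ()) (Sum.inr ()) = 1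
    rw [Matrix.mul_apply, Fintype.sum_sum_type]
    simp only [fromBlocks_apply₁₂, fromBlocks_apply₂₂, Finset.univ_unique, Finset.sum_singleton]
    have : ∀ i, g (Sum.inr ()) (Sum.inl i) * c i () =
        g (Sum.inr ()) (Sum.inl i) * w i * (1 - z) := by intro i; simp [c]; ring
    simp only [this, ← Finset.sum_mul, hw]
    simp [← hz]
  let r : Matrix Unit ι ℤ := fun _ i => - g1 (Sum.inr ()) (Sum.inl i)
  let g2 := g1 * fromBlocks 1 0 r 1
  have h21 : g2.toBlocks₂₁ = 0 := by
    ext i j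
    show (g1 * fromBlocks 1 0 r 1 : Matrix (ι ⊕ Unit) (ι ⊕ Unit) ℤ) (Sum.inr i) (Sum.inl j) = 0
    rw [Matrix.mul_apply, Fintype.sum_sum_type]
    simp only [fromBlocks_apply₁₁, fromBlocks_apply₂₁, Finset.univ_unique, Finset.sum_singleton]
    have h0 : ∑ x, g1 (Sum.inr i) (Sum.inl x) * (1 : Matrix ι ι ℤ) x j =
        g1 (Sum.inr i) (Sum.inl j) := by
      simp [Matrix.one_apply]
    rw [h0]
    show g1 (Sum.inr ()) (Sum.inl j) + g1 (Sum.inr ()) (Sum.inr ()) * r () j = 0
    rw [hg1]; simp [r]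
  have h22 : g2.toBlocks₂₂ = 1 := by
    ext i j
    show (g1 * fromBlocks 1 0 r 1 : Matrix (ι ⊕ Unit) (ι ⊕ Unit) ℤ) (Sum.inr i) (Sum.inr j) =
      (1 : Matrix Unit Unit ℤ) i j
    rw [Matrix.mul_apply, Fintype.sum_sum_type]
    simp only [fromBlocks_apply₁₂, fromBlocks_apply₂₂, Finset.univ_unique, Finset.sum_singleton]
    simp [hg1, Subsingleton.elim i ()]
  have hdet2 : g2.det = 1 := by
    show (g * fromBlocks 1 c 0 1 * fromBlocks 1 0 r 1).det = 1
    rw [det_mul, det_mul, hg, det_fromBlocks_zero₂₁, det_fromBlocks_zero₁₂]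
    simp
  have hg2 : g2 = fromBlocks 1 g2.toBlocks₁₂ 0 1 * fromBlocks g2.toBlocks₁₁ 0 0 1 := by
    conv_lhs => rw [← fromBlocks_toBlocks g2, h21, h22]
    rw [fromBlocks_multiply]
    simp
  refine ⟨g2.toBlocks₁₁, ?_, fromBlocks 1 g2.toBlocks₁₂ 0 1, El.upper _,
    fromBlocks 1 c 0 1 * fromBlocks 1 0 r 1, (El.upper c).mul (El.lower r), ?_⟩
  · rw [← fromBlocks_toBlocks g2, h21, h22, det_fromBlocks_zero₂₁] at hdet2
    simpa using hdet2
  · rw [← hg2, ← mul_assoc]

/-- The last row is unimodular. -/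
theorem row_unimod (g : Matrix (ι ⊕ Unit) (ι ⊕ Unit) ℤ) (hg : g.det = 1) :
    ∃ w : ι → ℤ, ∃ v : ℤ, ∑ i, g (Sum.inr ()) (Sum.inl i) * w i + g (Sum.inr ()) (Sum.inr ()) * v
      = 1 := by
  have h : g * g.adjugate = 1 := by rw [mul_adjugate, hg, one_smul]
  refine ⟨fun i => g.adjugate (Sum.inl i) (Sum.inr ()), g.adjugate (Sum.inr ()) (Sum.inr ()), ?_⟩
  have h2 := congrFun (congrFun h (Sum.inr ())) (Sum.inr ())
  rw [Matrix.mul_apply, Fintype.sum_sum_type] at h2
  simpa using h2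

theorem no_common_prime (g : Matrix (ι ⊕ Unit) (ι ⊕ Unit) ℤ) (hg : g.det = 1) {q : ℕ}
    (hq : q.Prime) (h : ∀ i, (q : ℤ) ∣ g (Sum.inr ()) i) : False := by
  obtain ⟨w, v, hwv⟩ := row_unimod g hg
  have : (q : ℤ) ∣ 1 := by
    rw [← hwv]
    exact dvd_add (Finset.dvd_sum fun i _ => (h _).mul_right _) ((h _).mul_right _)
  exact (Nat.prime_iff_prime_int.mp hq).not_isUnit (isUnit_of_dvd_one this)

theorem mul_transvection_row (g : Matrix (ι ⊕ Unit) (ι ⊕ Unit) ℤ) (a i j : ι ⊕ Unit) (c : ℤ)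
    (k : ι ⊕ Unit) : (g * transvection i j c) a k = g a k + (if k = j then c * g a i else 0) := by
  by_cases hk : k = j
  · subst hk; simp [mul_transvection_apply_same]
  · simp [mul_transvection_apply_of_ne _ _ _ _ hk, hk]

/-- Reduction: for `card ι ≥ 2`. -/
theorem reduce (i₀ i₁ : ι) (h01 : i₀ ≠ i₁) (g : Matrix (ι ⊕ Unit) (ι ⊕ Unit) ℤ)
    (hg : g.det = 1) :
    ∃ g' : Matrix ι ι ℤ, g'.det = 1 ∧ ∃ e, El (Fintype.card ι) e ∧ ∃ f,
      El (2 + (Fintype.card ι + Fintype.card ι)) f ∧ g * f = e * fromBlocks g' 0 0 1 := by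
  classical
  -- Step 1: make some entry different from `i₀` nonzero
  have step1 : ∃ e₁ : Matrix (ι ⊕ Unit) (ι ⊕ Unit) ℤ, El 1 e₁ ∧ (g * e₁).det = 1 ∧
      ∃ i, i ≠ i₀ ∧ (g * e₁) (Sum.inr ()) (Sum.inl i) ≠ 0 := by
    by_cases h1 : g (Sum.inr ()) (Sum.inl i₁) = 0
    · by_cases h2 : g (Sum.inr ()) (Sum.inr ()) = 0
      · by_cases h3 : g (Sum.inr ()) (Sum.inl i₀) = 0
        · -- some other entry is nonzero
          by_contra hcon
          push Not at hcon
          have hall := hcon 1 (El.one 1) (by simpa using hg)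
          obtain ⟨w, v, hwv⟩ := row_unimod g hg
          have : ∀ i, g (Sum.inr ()) (Sum.inl i) = 0 := by
            intro i
            by_cases hi : i = i₀
            · rw [hi]; exact h3
            · simpa using hall i hi
          simp [this, h2] at hwv
        · refine ⟨transvection (Sum.inl i₀) (Sum.inl i₁) 1, El.transvection (by simpa using h01) 1,
            ?_, i₁, h01.symm, ?_⟩
          · rw [det_mul, hg, det_transvection_of_ne _ _ (by simpa using h01)]; simp
          · rw [mul_transvection_row]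
            simp [h1, h3]
      · refine ⟨transvection (Sum.inr ()) (Sum.inl i₁) 1, El.transvection (by simp) 1,
            ?_, i₁, h01.symm, ?_⟩
        · rw [det_mul, hg, det_transvection_of_ne _ _ (by simp)]; simp
        · rw [mul_transvection_row]
          simp [h1, h2]
    · exact ⟨1, El.one 1, by simpa using hg, i₁, h01.symm, by simpa using h1⟩
  obtain ⟨e₁, he₁, hd₁, j, hj, hj0⟩ := step1
  set g₁ := g * e₁ with hg₁
  -- Step 2
  let d : ℤ := ((Finset.univ.erase i₀).gcd fun i => g₁ (Sum.inr ()) (Sum.inl i))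
  have hd : d ≠ 0 := by
    intro h0
    rw [Finset.gcd_eq_zero_iff] at h0
    exact hj0 (h0 j (by simp [hj]))
  obtain ⟨t, ht⟩ := exists_coprime_add (x := g₁ (Sum.inr ()) (Sum.inl i₀))
    (y := g₁ (Sum.inr ()) (Sum.inr ())) hd (by
      intro q hq hx hy hqd
      apply no_common_prime g₁ hd₁ hq
      rintro (i | i)
      · by_cases hi : i = i₀
        · rw [hi]; exact hx
        · exact hqd.trans (Finset.gcd_dvd (by simp [hi]))
      · exact hy)
  let e₂ : Matrix (ι ⊕ Unit) (ι ⊕ Unit) ℤ := transvection (Sum.inr ()) (Sum.inl i₀) t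
  have he₂ : El 1 e₂ := El.transvection (by simp) t
  have hd₂ : (g₁ * e₂).det = 1 := by
    rw [det_mul, hd₁, det_transvection_of_ne _ _ (by simp)]; simp
  have hrow : ∃ w : ι → ℤ, ∑ i, (g₁ * e₂) (Sum.inr ()) (Sum.inl i) * w i = 1 := by
    obtain ⟨a, b, hab⟩ := ht
    obtain ⟨u, hu⟩ := Finset.gcd_eq_sum_mul (Finset.univ.erase i₀)
      (fun i => g₁ (Sum.inr ()) (Sum.inl i))
    refine ⟨fun i => if i = i₀ then a else b * u i, ?_⟩
    rw [← Finset.add_sum_erase _ _ (Finset.mem_univ i₀)]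
    have e1 : (g₁ * e₂) (Sum.inr ()) (Sum.inl i₀) = g₁ (Sum.inr ()) (Sum.inl i₀) +
        t * g₁ (Sum.inr ()) (Sum.inr ()) := by
      rw [mul_transvection_row]; simp
    have e2 : ∀ i ∈ Finset.univ.erase i₀, (g₁ * e₂) (Sum.inr ()) (Sum.inl i) *
        (if i = i₀ then a else b * u i) = b * (g₁ (Sum.inr ()) (Sum.inl i) * u i) := by
      intro i hi
      have hi' : i ≠ i₀ := (Finset.mem_erase.mp hi).1
      rw [mul_transvection_row, if_neg hi', if_neg (by simpa using hi')]
      ring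
    rw [Finset.sum_congr rfl e2, e1, ← Finset.mul_sum]
    simp only [if_true]
    have hu' : ∑ i ∈ Finset.univ.erase i₀, g₁ (Sum.inr ()) (Sum.inl i) * u i = d := hu.symm
    rw [hu']
    linarith [hab]
  obtain ⟨w, hw⟩ := hrow
  obtain ⟨g', hg', e, he, f, hf, hfe⟩ := reduce_one (g₁ * e₂) hd₂ w hw
  refine ⟨g', hg', e, he, e₁ * e₂ * f, ?_, ?_⟩
  · exact ((he₁.mul he₂).mul hf).mono (by omega)
  · rw [← hfe, hg₁]; simp only [mul_assoc]

end Vale.Agent.P092.H350
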