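import Vale.Agent.P092.H350.Carter
import Vale.Agent.P092.H350.Unimod

/-!
Bounded elementary generation of `SL_n(ℤ)` for `n ≥ 3` (Carter-Keller).
-/

namespace Vale.Agent.P092.H350

open Matrix

/-- `Fin n ⊕ Unit ≃ Fin (n + 1)` -/
def finE (n : ℕ) : Fin n ⊕ Unit ≃ Fin (n + 1) :=
  (Equiv.sumCongr (Equiv.refl (Fin n)) (Equiv.ofUnique Unit (Fin 1))).trans finSumFinEquiv

theorem bg_step {n : ℕ} (hn : 2 ≤ n) {N : ℕ}
    (h : ∀ A : Matrix (Fin n) (Fin n) ℤ, A.det = 1 →
      El N (fromBlocks A 0 0 (1 : Matrix Unit Unit ℤ)))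
    (g : Matrix (Fin (n + 1)) (Fin (n + 1)) ℤ) (hg : g.det = 1) :
    El (3 * n + 2 + N) g := by
  let g' : Matrix (Fin n ⊕ Unit) (Fin n ⊕ Unit) ℤ := reindexAlgEquiv ℤ ℤ (finE n).symm g
  have hg' : g'.det = 1 := by
    show (reindex (finE n).symm (finE n).symm g).det = 1
    rw [det_reindex_self]; exact hg
  obtain ⟨A, hA, e, he, f, hf, hfe⟩ := reduce (⟨0, by omega⟩ : Fin n) ⟨1, by omega⟩
    (by simp) g' hg'
  have h1 : El (Fintype.card (Fin n) + N) (g' * f) := by rw [hfe]; exact he.mul (h A hA)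
  have h2 := El.of_mul_right hf h1
  have h3 := h2.reindex (finE n)
  have e : reindexAlgEquiv ℤ ℤ (finE n) g' = g := by
    ext i j; simp [g']
  rw [e] at h3
  refine h3.mono ?_
  simp only [Fintype.card_fin]
  omega

theorem El_block2 (A : Matrix (Fin 2) (Fin 2) ℤ) (hA : A.det = 1) :
    El 165 (fromBlocks A 0 0 (1 : Matrix Unit Unit ℤ)) := by
  have hd : A 0 0 * A 1 1 - A 0 1 * A 1 0 = 1 := by rw [← Matrix.det_fin_two]; exact hA
  have h := (El_sl2 hd).reindex (finE 2).symm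
  convert h using 1
  have e0 : finE 2 (Sum.inl 0) = 0 := rfl
  have e1 : finE 2 (Sum.inl 1) = 1 := rfl
  have e2 : finE 2 (Sum.inr ()) = 2 := rfl
  ext i j
  rcases i with i | i <;> rcases j with j | j
  · fin_cases i <;> fin_cases j <;> simp [m12, e0, e1]
  · fin_cases i <;> simp [m12, e0, e1, e2]
  · fin_cases j <;> simp [m12, e0, e1, e2]
  · simp [m12, e2]

theorem bg_matrix (n : ℕ) (hn : 3 ≤ n) : ∃ N : ℕ, ∀ g : Matrix (Fin n) (Fin n) ℤ,
    g.det = 1 → El N g := by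
  induction n, hn using Nat.le_induction with
  | base => exact ⟨_, fun g hg => bg_step (le_refl 2) El_block2 g hg⟩
  | succ n hn ih =>
    obtain ⟨N, hN⟩ := ih
    exact ⟨_, fun g hg => bg_step (by omega) (fun A hA => (hN A hA).sumInl) g hg⟩

/-- **Bounded elementary generation** (Carter-Keller 1983): for `n ≥ 3` there is `N` such that
every element of `SL_n(ℤ)` is a product of at most `N` elementary matrices. -/
theorem bounded_generation (n : ℕ) (hn : 3 ≤ n) : ∃ N : ℕ,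
    ∀ g : Matrix.SpecialLinearGroup (Fin n) ℤ,
      ∃ l : List (Matrix.TransvectionStruct (Fin n) ℤ), l.length ≤ N ∧
        (l.map Matrix.TransvectionStruct.toMatrix).prod = (g : Matrix (Fin n) (Fin n) ℤ) := by
  obtain ⟨N, hN⟩ := bg_matrix n hn
  exact ⟨N, fun g => hN g g.det_coe⟩

end Vale.Agent.P092.H350
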