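import Vale.Agent.P092.H350.Three

/-!
Carter-Keller: `SL_2(ℤ)` in `SL_3(ℤ)` consists of products of a bounded number of elementary
matrices (via Dirichlet's theorem on primes in arithmetic progressions).
-/

namespace Vale.Agent.P092.H350

open Matrix

theorem exists_prime_two {a m x y : ℤ} (ha : a ≠ 0) (hm : m ≠ 0) (ham : IsCoprime a m)
    (hx : IsCoprime x a) (hy : IsCoprime y m) (B : ℕ) :
    ∃ p : ℕ, p.Prime ∧ B < p ∧ a ∣ (p : ℤ) - x ∧ m ∣ (p : ℤ) - y := by
  obtain ⟨u, v, huv⟩ := ham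
  let z : ℤ := x * (v * m) + y * (u * a)
  have hza : a ∣ z - x := ⟨(y - x) * u, by simp only [z]; linear_combination x * huv⟩
  have hzm : m ∣ z - y := ⟨(x - y) * v, by simp only [z]; linear_combination y * huv⟩
  have hca : IsCoprime a z := by
    obtain ⟨t, ht⟩ := hza
    have e : z = x + a * t := by linear_combination ht
    rw [e]
    exact IsCoprime.add_mul_left_right hx.symm t
  have hcm : IsCoprime m z := by
    obtain ⟨t, ht⟩ := hzm
    have e : z = y + m * t := by linear_combination ht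
    rw [e]
    exact IsCoprime.add_mul_left_right hy.symm t
  have hq0 : (a * m).natAbs ≠ 0 := by simp [ha, hm]
  have : NeZero (a * m).natAbs := ⟨hq0⟩
  have hc : IsCoprime (((a * m).natAbs : ℕ) : ℤ) z := by
    rw [Int.natCast_natAbs]
    exact (hca.mul_left hcm).abs_left
  have hunit : IsUnit ((z : ℤ) : ZMod (a * m).natAbs) :=
    (ZMod.coe_int_isUnit_iff_isCoprime z _).mpr hc
  obtain ⟨p, hpB, hp, hpz⟩ := Nat.forall_exists_prime_gt_and_eq_mod hunit B
  refine ⟨p, hp, hpB, ?_, ?_⟩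
  all_goals
    have h1 : (((a * m).natAbs : ℕ) : ℤ) ∣ (p : ℤ) - z := by
      rw [← ZMod.intCast_eq_intCast_iff_dvd_sub]
      push_cast
      exact hpz.symm
    rw [Int.natAbs_dvd] at h1
  · have h2 : a ∣ (p : ℤ) - z := (Dvd.intro _ rfl).trans h1
    have := dvd_add h2 hza
    simpa using this
  · have h2 : m ∣ (p : ℤ) - z := (Dvd.intro_left _ rfl).trans h1
    have := dvd_add h2 hzm
    simpa using this

theorem prime_pow_half {p : ℕ} (hp : p.Prime) {a : ℤ} (ha : ¬ (p : ℤ) ∣ a) :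
    (p : ℤ) ∣ a ^ (p / 2) - 1 ∨ (p : ℤ) ∣ a ^ (p / 2) + 1 := by
  have : Fact p.Prime := ⟨hp⟩
  have ha' : ((a : ℤ) : ZMod p) ≠ 0 := by
    rwa [Ne, ZMod.intCast_zmod_eq_zero_iff_dvd]
  rcases ZMod.pow_div_two_eq_neg_one_or_one p ha' with h | h
  · left
    rw [← ZMod.intCast_zmod_eq_zero_iff_dvd]
    push_cast
    rw [h, sub_self]
  · right
    rw [← ZMod.intCast_zmod_eq_zero_iff_dvd]
    push_cast
    rw [h]; ring

theorem coprime_part (m : ℕ) (a : ℤ) : ∃ m₁ : ℕ, m₁ ≠ 0 ∧ IsCoprime (m₁ : ℤ) a ∧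
    ∀ q : ℕ, q.Prime → q ∣ m → m ≠ 0 → ¬ (q : ℤ) ∣ a → q ∣ m₁ := by
  classical
  let s : Finset ℕ := m.primeFactors.filter (fun q : ℕ => ¬ (q : ℤ) ∣ a)
  refine ⟨∏ q ∈ s, q, ?_, ?_, ?_⟩
  · rw [Finset.prod_ne_zero_iff]
    intro q hq
    exact (Nat.prime_of_mem_primeFactors (Finset.mem_filter.mp hq).1).ne_zero
  · push_cast
    apply IsCoprime.prod_left
    intro q hq
    have hq' := Finset.mem_filter.mp hq
    have hqp := Nat.prime_iff_prime_int.mp (Nat.prime_of_mem_primeFactors hq'.1)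
    exact (hqp.irreducible.coprime_iff_not_dvd).mpr hq'.2
  · intro q hq hqm hm hqa
    exact Finset.dvd_prod_of_mem _ (Finset.mem_filter.mpr
      ⟨Nat.mem_primeFactors.mpr ⟨hq, hqm, hm⟩, hqa⟩)

/-- the case of two good primes -/
theorem El_good {a b c d : ℤ} (hd : a * d - b * c = 1) (ha : ¬ (2 : ℤ) ∣ a) :
    El 164 (m12 a b c d) := by
  have ha0 : a ≠ 0 := by rintro rfl; exact ha (dvd_zero 2)
  have ha4 : IsCoprime a 4 := by
    have h2 : IsCoprime a 2 :=
      ((Int.prime_two.irreducible.coprime_iff_not_dvd).mpr ha).symm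
    have := h2.mul_right h2
    norm_num at this
    exact this
  have hab : IsCoprime b a := ⟨-c, d, by linear_combination hd⟩
  have hac : IsCoprime c a := ⟨-b, d, by linear_combination hd⟩
  -- first prime
  obtain ⟨p, hp, hp2, ⟨t, ht⟩, ⟨j, hj⟩⟩ := exists_prime_two ha0 (by norm_num) ha4 hab
    (show IsCoprime (3 : ℤ) 4 from ⟨-1, 1, by norm_num⟩) 2
  -- the odd number `p / 2`
  have hpodd : ¬ 2 ∣ p / 2 := by omega
  have hpm : p / 2 ≠ 0 := by omega
  have hpeq : (p : ℤ) - 1 = 2 * ((p / 2 : ℕ) : ℤ) := by omega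
  obtain ⟨m₁, hm0, hma, hmq⟩ := coprime_part (p / 2) a
  obtain ⟨r, hr, hr2, ⟨s, hs⟩, ⟨i, hi⟩⟩ := exists_prime_two ha0
    (show (m₁ : ℤ) ≠ 0 by exact_mod_cast hm0) hma.symm hac
    (show IsCoprime (-1 : ℤ) (m₁ : ℤ) from ⟨-1, 0, by norm_num⟩) 2
  have hrodd : ¬ 2 ∣ r := by
    intro h
    rcases (Nat.dvd_prime hr).mp h with h | h <;> omega
  have hreq : (r : ℤ) - 1 = 2 * ((r / 2 : ℕ) : ℤ) := by omega
  -- new matrix
  let d' : ℤ := d + s * b + t * (r : ℤ)
  have hd' : a * d' - (p : ℤ) * (r : ℤ) = 1 := by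
    simp only [d']
    linear_combination hd - s * ht * a + s * ht * a - b * hs + b * hs +
      (-(r : ℤ)) * ht - b * hs
  have hpa : ¬ (p : ℤ) ∣ a := by
    intro h
    have : (p : ℤ) ∣ 1 := by
      rw [← hd']; exact dvd_sub (h.mul_right _) (Dvd.intro _ rfl)
    exact (Nat.prime_iff_prime_int.mp hp).not_isUnit (isUnit_of_dvd_one this)
  have hra : ¬ (r : ℤ) ∣ a := by
    intro h
    have : (r : ℤ) ∣ 1 := by
      rw [← hd']; exact dvd_sub (h.mul_right _) (Dvd.intro_left _ rfl)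
    exact (Nat.prime_iff_prime_int.mp hr).not_isUnit (isUnit_of_dvd_one this)
  have hcop : Nat.Coprime (p / 2) (r / 2) := by
    by_contra hne
    obtain ⟨q, hq, hq1, hq2⟩ := Nat.Prime.not_coprime_iff_dvd.mp hne
    have hq2' : q ≠ 2 := by rintro rfl; exact hpodd hq1
    have h1 : (q : ℤ) ∣ (p : ℤ) - 1 := by
      rw [hpeq]; exact (Int.natCast_dvd_natCast.mpr hq1).mul_left 2
    have h2 : (q : ℤ) ∣ (r : ℤ) - 1 := by
      rw [hreq]; exact (Int.natCast_dvd_natCast.mpr hq2).mul_left 2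
    have h3 : (q : ℤ) ∣ 2 := by
      by_cases hqa : (q : ℤ) ∣ a
      · have h4 : (q : ℤ) ∣ a * d' - (p - 1) * r - (r - 1) :=
          dvd_sub (dvd_sub (hqa.mul_right _) (h1.mul_right _)) h2
        have e : a * d' - ((p : ℤ) - 1) * r - (r - 1) = 2 := by linear_combination hd'
        rwa [e] at h4
      · have h5 : (q : ℤ) ∣ (r : ℤ) + 1 := by
          have h6 : (q : ℤ) ∣ (m₁ : ℤ) := Int.natCast_dvd_natCast.mpr (hmq q hq hq1 hpm hqa)
          have h7 : (r : ℤ) + 1 = m₁ * i := by linear_combination hi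
          rw [h7]; exact h6.mul_right i
        have := dvd_sub h5 h2
        have e : (r : ℤ) + 1 - (r - 1) = 2 := by ring
        rwa [e] at this
    have h4 : q ∣ 2 := by exact_mod_cast h3
    rcases (Nat.dvd_prime Nat.prime_two).mp h4 with h | h
    · exact hq.one_lt.ne' h
    · exact hq2' h
  have key : El 162 (m12 a (p : ℤ) (r : ℤ) d') :=
    El_of_coprime hd' (by omega) (by omega) hcop (prime_pow_half hp hpa) (prime_pow_half hr hra)
  have e : m12 a b c d = !![1, 0, 0; -s, 1, 0; 0, 0, 1] * m12 a (p : ℤ) (r : ℤ) d' *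
      !![1, -t, 0; 0, 1, 0; 0, 0, 1] := by
    have hb : b = (p : ℤ) - a * t := by linear_combination -ht
    have hc : c = (r : ℤ) - a * s := by linear_combination -hs
    simp only [m12, Matrix.mul_fin_three, d', hb, hc]
    congr 1
    funext i j
    fin_cases i <;> fin_cases j <;> simp
    all_goals ring
  rw [e]
  exact (((e10 (-s)).mul key).mul (e01 (-t))).mono (by omega)

theorem El_sl2 {a b c d : ℤ} (hd : a * d - b * c = 1) : El 165 (m12 a b c d) := by
  by_cases ha : (2 : ℤ) ∣ a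
  · have h1 : ¬ (2 : ℤ) ∣ a + b := by
      intro h
      have h2 : (2 : ℤ) ∣ b := (dvd_add_right ha).mp h
      have : (2 : ℤ) ∣ 1 := by rw [← hd]; exact dvd_sub (ha.mul_right _) (h2.mul_right _)
      norm_num at this
    have h := El_good (a := a + b) (b := b) (c := c + d) (d := d) (by linear_combination hd) h1
    have e : m12 a b c d = m12 (a + b) b (c + d) d * !![1, 0, 0; -1, 1, 0; 0, 0, 1] := by
      simp only [m12, Matrix.mul_fin_three]
      simp
    rw [e]
    exact (h.mul (e10 (-1))).mono (by omega)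
  · exact (El_good hd ha).mono (by omega)

end Vale.Agent.P092.H350
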