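import Mathlib

/-!
Products of boundedly many elementary matrices over `ℤ`: basic calculus.
-/

namespace Vale.Agent.P092.H350

open Matrix

variable {ι κ : Type} [Fintype ι] [DecidableEq ι] [Fintype κ] [DecidableEq κ]

/-- `g` is a product of at most `N` elementary matrices. -/
def El (N : ℕ) (g : Matrix ι ι ℤ) : Prop :=
  ∃ l : List (TransvectionStruct ι ℤ), l.length ≤ N ∧ (l.map TransvectionStruct.toMatrix).prod = g

theorem El.one (N : ℕ) : El N (1 : Matrix ι ι ℤ) := ⟨[], by simp, by simp⟩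

theorem El.mono {N M : ℕ} {g : Matrix ι ι ℤ} (h : El N g) (hNM : N ≤ M) : El M g := by
  obtain ⟨l, h1, h2⟩ := h
  exact ⟨l, h1.trans hNM, h2⟩

theorem El.mul {N M : ℕ} {g h : Matrix ι ι ℤ} (hg : El N g) (hh : El M h) : El (N + M) (g * h) := by
  obtain ⟨l, h1, h2⟩ := hg
  obtain ⟨l', h1', h2'⟩ := hh
  exact ⟨l ++ l', by simp; omega, by simp [h2, h2']⟩

theorem El.transvection {i j : ι} (hij : i ≠ j) (c : ℤ) : El 1 (transvection i j c) :=
  ⟨[⟨i, j, hij, c⟩], by simp, by simp⟩

theorem El.inv {N : ℕ} {g : Matrix ι ι ℤ} (hg : El N g) :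
    ∃ h, El N h ∧ h * g = 1 ∧ g * h = 1 := by
  obtain ⟨l, h1, h2⟩ := hg
  have h3 := TransvectionStruct.reverse_inv_prod_mul_prod l
  rw [h2] at h3
  refine ⟨(l.reverse.map (TransvectionStruct.toMatrix ∘ TransvectionStruct.inv)).prod,
    ⟨l.reverse.map TransvectionStruct.inv, by simpa using h1, by simp⟩, h3, ?_⟩
  exact mul_eq_one_comm.mp h3

/-- if `e * g = h` with `e` a short product, `h` a short product, then so is `g`. -/
theorem El.of_mul_left {N M : ℕ} {e g : Matrix ι ι ℤ} (he : El N e) (h : El M (e * g)) :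
    El (N + M) g := by
  obtain ⟨f, hf, hf1, -⟩ := he.inv
  have := hf.mul h
  rwa [← mul_assoc, hf1, one_mul] at this

theorem El.of_mul_right {N M : ℕ} {e g : Matrix ι ι ℤ} (he : El N e) (h : El M (g * e)) :
    El (M + N) g := by
  obtain ⟨f, hf, -, hf1⟩ := he.inv
  have := h.mul hf
  rwa [mul_assoc, hf1, mul_one] at this

theorem El.transpose {N : ℕ} {g : Matrix ι ι ℤ} (hg : El N g) : El N gᵀ := by
  obtain ⟨l, h1, h2⟩ := hg
  refine ⟨l.reverse.map (fun t => ⟨t.j, t.i, t.hij.symm, t.c⟩), by simpa using h1, ?_⟩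
  rw [← h2, Matrix.transpose_list_prod]
  simp only [List.map_map, List.map_reverse]
  congr 2
  apply List.map_congr_left
  intro t _
  simp [TransvectionStruct.toMatrix, Matrix.transvection, Matrix.transpose_add]

theorem El.sumInl {N : ℕ} {g : Matrix ι ι ℤ} (hg : El N g) :
    El N (fromBlocks g 0 0 (1 : Matrix κ κ ℤ)) := by
  obtain ⟨l, h1, h2⟩ := hg
  refine ⟨l.map (TransvectionStruct.sumInl κ), by simpa using h1, ?_⟩
  have h := TransvectionStruct.sumInl_toMatrix_prod_mul (p := κ) 1 l 1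
  rw [List.map_map]
  simpa [h2] using h

theorem El.reindex {N : ℕ} (e : ι ≃ κ) {g : Matrix ι ι ℤ} (hg : El N g) :
    El N (reindexAlgEquiv ℤ ℤ e g) := by
  obtain ⟨l, h1, h2⟩ := hg
  refine ⟨l.map (TransvectionStruct.reindexEquiv e), by simpa using h1, ?_⟩
  rw [← h2, map_list_prod, List.map_map, List.map_map]
  congr 1
  apply List.map_congr_left
  intro t _
  exact TransvectionStruct.toMatrix_reindexEquiv e t

end Vale.Agent.P092.H350
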