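import Vale.Agent.P092.H350.Step

/-!
Tight subspaces for elements of an overgroup `G₀ ≥ Γ` of finite index.
-/

namespace Vale.Agent.P092.H350

open Vale.Agent.P092.H160
open scoped InnerProductSpace

set_option linter.unusedSectionVars false

theorem Heis.symm {G : Type} [Group G] {x y r : G} (h : Heis x y r) : Heis y x r⁻¹ where
  eq := by rw [h.eq]; group
  cx := h.cy.inv_left
  cy := h.cx.inv_left

theorem Heis.pow₂ {G : Type} [Group G] {x y r : G} (h : Heis x y r) (a b : ℤ) :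
    Heis (x ^ a) (y ^ b) (r ^ (a * b)) := by
  have h1 := ((h.pow b).symm.pow a).symm
  have e : (((r ^ b)⁻¹) ^ a)⁻¹ = r ^ (a * b) := by
    rw [inv_zpow, inv_inv, ← zpow_mul, mul_comm]
  rwa [e] at h1

variable {G₀ : Type} [Group G₀] {Γ : Subgroup G₀} [hfi : Γ.FiniteIndex]
  {Λ : Type} [Group Λ] {α : Γ →* (Ell2 Λ →L[ℂ] Ell2 Λ)}

/-- A nonzero power of `X` in `Γ`. -/
theorem exists_pow_mem (Γ : Subgroup G₀) [Γ.FiniteIndex] (X : G₀) :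
    ∃ a : ℤ, a ≠ 0 ∧ X ^ a ∈ Γ := by
  obtain ⟨m, hm, _, hX⟩ := Subgroup.exists_pow_mem_of_index_ne_zero
    (Subgroup.FiniteIndex.index_ne_zero (H := Γ)) X
  exact ⟨m, by exact_mod_cast hm.ne', by rwa [zpow_natCast]⟩

namespace GoodRep

/-- The tight subspace of `X ∈ G₀`. -/
noncomputable def HT (α : Γ →* (Ell2 Λ →L[ℂ] Ell2 Λ)) (X : G₀) : Submodule ℂ (Ell2 Λ) :=
  Ht α ⟨X ^ (exists_pow_mem Γ X).choose, (exists_pow_mem Γ X).choose_spec.2⟩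

theorem HT_eq (hα : GoodRep α) {X : G₀} {x : Γ} {m l : ℤ} (hm : m ≠ 0) (hl : l ≠ 0)
    (h : (x : G₀) ^ m = X ^ l) : Ht α x = HT α X := by
  obtain ⟨he, hmem⟩ := (exists_pow_mem Γ X).choose_spec
  rw [HT]
  set e := (exists_pow_mem Γ X).choose
  rw [← hα.Ht_pow x (mul_ne_zero hm he), ← hα.Ht_pow ⟨X ^ e, hmem⟩ hl]
  congr 1
  ext
  push_cast
  rw [zpow_mul, h, ← zpow_mul, ← zpow_mul, mul_comm]

theorem HT_coe (hα : GoodRep α) (x : Γ) : HT α (x : G₀) = Ht α x :=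
  (hα.HT_eq (m := 1) (l := 1) one_ne_zero one_ne_zero rfl).symm

theorem HT_zpow (hα : GoodRep α) (X : G₀) {m : ℤ} (hm : m ≠ 0) : HT α (X ^ m) = HT α X := by
  obtain ⟨a, ha, hX⟩ := exists_pow_mem Γ X
  have h1 : Ht α ⟨X ^ a, hX⟩ = HT α X := hα.HT_eq (m := 1) one_ne_zero ha (by simp)
  have h2 : Ht α ⟨X ^ a, hX⟩ = HT α (X ^ m) := hα.HT_eq hm ha (by
    simp only
    rw [← zpow_mul, ← zpow_mul, mul_comm])
  rw [← h1, ← h2]

/-- Lifting a Heisenberg relation to `Γ`. -/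
theorem heis_lift {X Y R : G₀} (h : Heis X Y R) : ∃ (a b : ℤ) (x y r : Γ), a ≠ 0 ∧ b ≠ 0 ∧
    (x : G₀) = X ^ a ∧ (y : G₀) = Y ^ b ∧ (r : G₀) = R ^ (a * b) ∧ Heis x y r := by
  obtain ⟨a, ha, hX⟩ := exists_pow_mem Γ X
  obtain ⟨b, hb, hY⟩ := exists_pow_mem Γ Y
  have h1 := h.pow₂ a b
  have hR : R ^ (a * b) ∈ Γ := by
    have e : R ^ (a * b) = X ^ a * Y ^ b * (X ^ a)⁻¹ * (Y ^ b)⁻¹ := by
      rw [h1.eq]; group
    rw [e]
    exact Γ.mul_mem (Γ.mul_mem (Γ.mul_mem hX hY) (Γ.inv_mem hX)) (Γ.inv_mem hY)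
  refine ⟨a, b, ⟨_, hX⟩, ⟨_, hY⟩, ⟨_, hR⟩, ha, hb, rfl, rfl, rfl, ?_, ?_, ?_⟩
  · exact Subtype.ext h1.eq
  · exact Subtype.ext h1.cx.eq
  · exact Subtype.ext h1.cy.eq

theorem HT_ne_bot (hα : GoodRep α) {X Y R : G₀} (h : Heis X Y R) (hX : HT α X ≠ ⊥) :
    HT α R ≠ ⊥ := by
  obtain ⟨a, b, x, y, r, ha, hb, ex, ey, er, hH⟩ := heis_lift (Γ := Γ) h
  have h1 : Ht α x = HT α X := hα.HT_eq (m := 1) one_ne_zero ha (by rw [zpow_one, ex])
  have h2 : Ht α r = HT α R := hα.HT_eq (m := 1) one_ne_zero (mul_ne_zero ha hb)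
    (by rw [zpow_one, er])
  rw [← h1] at hX
  rw [← h2]
  exact hα.step_ne_bot hH hX

theorem HT_top (hα : GoodRep α) {X Y R : G₀} (h : Heis X Y R) (hX : HT α X = ⊤) :
    HT α R = ⊤ := by
  obtain ⟨a, b, x, y, r, ha, hb, ex, ey, er, hH⟩ := heis_lift (Γ := Γ) h
  have h1 : Ht α x = HT α X := hα.HT_eq (m := 1) one_ne_zero ha (by rw [zpow_one, ex])
  have h2 : Ht α r = HT α R := hα.HT_eq (m := 1) one_ne_zero (mul_ne_zero ha hb)
    (by rw [zpow_one, er])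
  rw [← h1] at hX
  rw [← h2]
  exact hα.step_top hH hX

/-- If `c x g ≠ 0` and `H ∈ G₀` commutes with `X`, where `x` is a power of `X`, then a nonzero
power of `H` commutes with `g`. -/
theorem exists_zpow_comm (hα : GoodRep α) {x g : Γ} {H : G₀} (hc : Commute H (x : G₀))
    (hg : hα.c x g ≠ 0) : ∃ m : ℤ, m ≠ 0 ∧ Commute (H ^ m) (g : G₀) := by
  obtain ⟨a, ha, hH⟩ := exists_pow_mem Γ H
  have hc' : Commute (⟨H ^ a, hH⟩ : Γ) x := Subtype.ext (hc.zpow_left a).eq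
  obtain ⟨m, hm, h1⟩ := hα.exists_pow_comm hc' hg
  refine ⟨a * m, mul_ne_zero ha (by exact_mod_cast hm), ?_⟩
  have h2 := congrArg (Subtype.val : Γ → G₀) h1.eq
  push_cast at h2
  rw [← zpow_natCast, ← zpow_mul] at h2
  exact h2

end GoodRep

end Vale.Agent.P092.H350
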