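import Vale.Agent.P092.H350.Roots

/-!
Finite index subgroups of `SL_n(ℤ)`, `n ≥ 3`, which do not contain `-1` are ICC.
-/

namespace Vale.Agent.P092.H350

open Matrix

variable {n : ℕ}

theorem exists_zpow_comm_of_finite {G₀ : Type} [Group G₀] {Γ : Subgroup G₀} [Γ.FiniteIndex]
    {g : Γ} (hfin : ¬ Set.Infinite {y : Γ | ∃ h : Γ, y = h * g * h⁻¹}) (H : G₀) :
    ∃ m : ℤ, m ≠ 0 ∧ Commute (H ^ m) (g : G₀) := by
  obtain ⟨a, ha, hH⟩ := exists_pow_mem Γ H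
  set h : Γ := ⟨H ^ a, hH⟩ with hh
  have hninj : ¬ Function.Injective (fun m : ℕ => h ^ m * g * (h ^ m)⁻¹) := by
    intro hinj
    apply hfin
    refine (Set.infinite_range_of_injective hinj).mono ?_
    rintro _ ⟨m, rfl⟩
    exact ⟨h ^ m, rfl⟩
  have key : ∀ m l : ℕ, m < l → h ^ m * g * (h ^ m)⁻¹ = h ^ l * g * (h ^ l)⁻¹ →
      ∃ d : ℕ, d ≠ 0 ∧ Commute (h ^ d) g := by
    intro m l hml e
    obtain ⟨d, rfl⟩ := Nat.exists_eq_add_of_lt hml
    refine ⟨d + 1, by omega, ?_⟩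
    have e2 : h ^ (m + d + 1) = h ^ m * h ^ (d + 1) := by rw [← pow_add]; rfl
    rw [e2] at e
    have e3 : g = h ^ (d + 1) * g * (h ^ (d + 1))⁻¹ := by
      have := congrArg (fun z => (h ^ m)⁻¹ * z * h ^ m) e
      simp only [_root_.mul_inv_rev] at this
      calc g = (h ^ m)⁻¹ * (h ^ m * g * (h ^ m)⁻¹) * h ^ m := by group
        _ = (h ^ m)⁻¹ * (h ^ m * h ^ (d + 1) * g * ((h ^ (d + 1))⁻¹ * (h ^ m)⁻¹)) * h ^ m := this
        _ = h ^ (d + 1) * g * (h ^ (d + 1))⁻¹ := by group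
    show h ^ (d + 1) * g = g * h ^ (d + 1)
    conv_rhs => rw [e3]
    group
  obtain ⟨d, hd, hc⟩ : ∃ d : ℕ, d ≠ 0 ∧ Commute (h ^ d) g := by
    simp only [Function.Injective, not_forall] at hninj
    obtain ⟨m, l, e, hne⟩ := hninj
    rcases lt_or_gt_of_ne hne with h1 | h1
    · exact key _ _ h1 e
    · exact key _ _ h1 e.symm
  refine ⟨a * d, mul_ne_zero ha (by exact_mod_cast hd), ?_⟩
  have h2 := congrArg (Subtype.val : Γ → G₀) hc.eq
  push_cast at h2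
  rw [hh] at h2
  simp only at h2
  rw [← zpow_natCast, ← _root_.zpow_mul] at h2
  exact h2

/-- A finite index subgroup of `SL_n(ℤ)`, `n ≥ 3`, which does not contain `-1` is ICC. -/
theorem icc {Γ : Subgroup (Matrix.SpecialLinearGroup (Fin n) ℤ)} [Γ.FiniteIndex] (hn : 3 ≤ n)
    (hΓ : ∀ g ∈ Γ, (g : Matrix (Fin n) (Fin n) ℤ) ≠ -1) (g : Γ) (hg : g ≠ 1) :
    Set.Infinite {y : Γ | ∃ h : Γ, y = h * g * h⁻¹} := by
  by_contra hfin
  apply hg
  have hK : ∀ φ : Fin n → ℤ,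
      K ((g : Matrix.SpecialLinearGroup (Fin n) ℤ) : Matrix (Fin n) (Fin n) ℤ) φ := by
    intro φ w hw
    obtain ⟨m, hm, hc⟩ := exists_zpow_comm_of_finite hfin (root w φ hw)
    rw [root_zpow] at hc
    have h1 := congrArg (Subtype.val :
      Matrix.SpecialLinearGroup (Fin n) ℤ → Matrix (Fin n) (Fin n) ℤ) hc.eq
    rw [Matrix.SpecialLinearGroup.coe_mul, Matrix.SpecialLinearGroup.coe_mul, root_coe, add_mul,
      mul_add, one_mul, mul_one, add_right_inj, smul_vecMulVec, smul_mul_assoc,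
      mul_smul_comm] at h1
    exact (smul_right_injective _ hm h1).symm
  refine GoodRep.eq_one_of_K hn hΓ (a := Pi.single ⟨0, by omega⟩ 1)
    (b := Pi.single ⟨1, by omega⟩ 1) ?_ (hK _) (hK _)
  exact ⟨⟨0, by omega⟩, ⟨1, by omega⟩, by simp⟩

end Vale.Agent.P092.H350
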