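import Vale.Agent.P092.H350.HT

/-!
Linear algebra of root elements of `SL_n(ℤ)`.
-/

namespace Vale.Agent.P092.H350

open Matrix

set_option linter.unusedSectionVars false

variable {n : ℕ}

theorem sl_ext {A B : SpecialLinearGroup (Fin n) ℤ}
    (h : (A : Matrix (Fin n) (Fin n) ℤ) = (B : Matrix (Fin n) (Fin n) ℤ)) : A = B :=
  Subtype.ext h

/-- The root element `1 + v ⊗ φ`, `φ(v) = 0`. -/
def root (v φ : Fin n → ℤ) (h : φ ⬝ᵥ v = 0) : SpecialLinearGroup (Fin n) ℤ :=
  ⟨1 + vecMulVec v φ, by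
    rw [vecMulVec_eq Unit, det_one_add_replicateCol_mul_replicateRow, h, add_zero]⟩

theorem root_coe (v φ : Fin n → ℤ) (h : φ ⬝ᵥ v = 0) :
    ((root v φ h : SpecialLinearGroup (Fin n) ℤ) : Matrix (Fin n) (Fin n) ℤ) = 1 + vecMulVec v φ :=
  rfl

theorem root_mul (v w φ : Fin n → ℤ) (h : φ ⬝ᵥ v = 0) (h' : φ ⬝ᵥ w = 0) :
    root v φ h * root w φ h' = root (v + w) φ (by rw [dotProduct_add, h, h', add_zero]) := by
  apply sl_ext
  rw [Matrix.SpecialLinearGroup.coe_mul, root_coe, root_coe, root_coe, add_vecMulVec, mul_add, add_mul,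
    add_mul, vecMulVec_mul_vecMulVec, h']
  simp
  abel

theorem root_zero (φ : Fin n → ℤ) (h : φ ⬝ᵥ 0 = 0) : root 0 φ h = 1 := by
  apply sl_ext
  rw [root_coe]
  simp

theorem root_zpow (v φ : Fin n → ℤ) (h : φ ⬝ᵥ v = 0) (m : ℤ) :
    root v φ h ^ m = root (m • v) φ (by rw [dotProduct_smul, h, smul_zero]) := by
  have hinv : (root v φ h)⁻¹ = root (-v) φ (by rw [dotProduct_neg, h, neg_zero]) := by
    rw [inv_eq_iff_mul_eq_one, root_mul]
    simp only [add_neg_cancel]
    exact root_zero φ _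
  induction m using Int.induction_on with
  | zero => simp only [zpow_zero, zero_smul]; exact (root_zero φ _).symm
  | succ k ih =>
    rw [_root_.zpow_add_one, ih, root_mul]
    simp only [add_smul, one_smul]
  | pred k ih =>
    rw [_root_.zpow_sub_one, ih, hinv, root_mul]
    congr 1
    module

/-- Heisenberg relation, first form. -/
theorem heis_left (x : SpecialLinearGroup (Fin n) ℤ) (v φ : Fin n → ℤ)
    (hφ : φ ᵥ* (x : Matrix (Fin n) (Fin n) ℤ) = φ) (hv : φ ⬝ᵥ v = 0)
    (h2 : (x : Matrix (Fin n) (Fin n) ℤ) *ᵥ ((x : Matrix (Fin n) (Fin n) ℤ) *ᵥ v - v)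
      = (x : Matrix (Fin n) (Fin n) ℤ) *ᵥ v - v) :
    Heis x (root v φ hv) (root ((x : Matrix (Fin n) (Fin n) ℤ) *ᵥ v - v) φ
      (by rw [dotProduct_sub, dotProduct_mulVec, hφ, hv, sub_zero])) where
  eq := by
    apply sl_ext
    simp only [Matrix.SpecialLinearGroup.coe_mul, root_coe]
    rw [← mul_assoc, mul_add (x : Matrix (Fin n) (Fin n) ℤ), mul_vecMulVec, mul_one]
    have e : (1 + vecMulVec ((x : Matrix (Fin n) (Fin n) ℤ) *ᵥ v - v) φ) * (1 + vecMulVec v φ)
        = 1 + vecMulVec ((x : Matrix (Fin n) (Fin n) ℤ) *ᵥ v) φ := by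
      rw [mul_add, add_mul, add_mul, vecMulVec_mul_vecMulVec, hv, sub_vecMulVec]
      simp only [mul_one, zero_smul, vecMulVec_zero, add_zero, one_mul]
      abel
    rw [e, add_mul, one_mul, vecMulVec_mul, hφ]
  cx := by
    apply sl_ext
    simp only [Matrix.SpecialLinearGroup.coe_mul, root_coe]
    rw [add_mul, one_mul, mul_add, mul_one, vecMulVec_mul, hφ, mul_vecMulVec, h2]
  cy := by
    show _ * _ = _ * _
    rw [root_mul, root_mul]
    simp only [add_comm]

/-- Heisenberg relation, second form. -/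
theorem heis_right (v φ w χ : Fin n → ℤ) (hv : φ ⬝ᵥ v = 0) (hw : φ ⬝ᵥ w = 0) (hχ : χ ⬝ᵥ w = 0) :
    Heis (root v φ hv) (root w χ hχ) (root ((-(χ ⬝ᵥ v)) • w) φ
      (by rw [dotProduct_smul, hw, smul_zero])) where
  eq := by
    apply sl_ext
    simp only [Matrix.SpecialLinearGroup.coe_mul, root_coe]
    simp only [mul_add, add_mul, mul_one, one_mul, vecMulVec_mul_vecMulVec, smul_vecMulVec,
      smul_mul_assoc, mul_smul_comm, hv, hw, zero_smul, vecMulVec_zero, vecMulVec_smul, smul_zero,
      add_zero]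
    module
  cx := by
    show _ * _ = _ * _
    rw [root_mul, root_mul]
    simp only [add_comm]
  cy := by
    apply sl_ext
    simp only [Matrix.SpecialLinearGroup.coe_mul, root_coe]
    simp only [mul_add, add_mul, mul_one, one_mul, vecMulVec_mul_vecMulVec, smul_vecMulVec,
      smul_mul_assoc, hw, hχ, zero_smul, vecMulVec_zero, smul_zero, add_zero,
      mul_smul_comm]
    module

/-- Two vectors are not proportional. -/
def LI (a b : Fin n → ℤ) : Prop := ∃ p q, a p * b q - a q * b p ≠ 0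

theorem LI.symm {a b : Fin n → ℤ} (h : LI a b) : LI b a := by
  obtain ⟨p, q, h⟩ := h
  exact ⟨q, p, fun e => h (by linarith)⟩

theorem exists_third (hn : 3 ≤ n) (p q : Fin n) : ∃ r : Fin n, r ≠ p ∧ r ≠ q := by
  by_contra hcon
  push Not at hcon
  have h1 : (Finset.univ : Finset (Fin n)) ⊆ {p, q} := by
    intro r _
    by_cases h : r = p
    · simp [h]
    · simp [hcon r h]
  have h2 := (Finset.card_le_card h1).trans Finset.card_le_two
  rw [Finset.card_univ, Fintype.card_fin] at h2
  omega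

/-- A nonzero vector killed by two functionals. -/
theorem exists_common_kernel (hn : 3 ≤ n) {a b : Fin n → ℤ} (h : LI a b) :
    ∃ u : Fin n → ℤ, u ≠ 0 ∧ a ⬝ᵥ u = 0 ∧ b ⬝ᵥ u = 0 := by
  obtain ⟨p, q, h⟩ := h
  have hpq : p ≠ q := by rintro rfl; exact h (by ring)
  obtain ⟨r, hrp, hrq⟩ := exists_third hn p q
  refine ⟨(a q * b r - a r * b q) • Pi.single p 1 + (a r * b p - a p * b r) • Pi.single q 1
    + (a p * b q - a q * b p) • Pi.single r 1, ?_, ?_, ?_⟩
  · intro e
    have := congrFun e r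
    simp [hrp, hrq] at this
    exact h this
  · simp only [dotProduct_add, dotProduct_smul, dotProduct_single, mul_one, smul_eq_mul]
    ring
  · simp only [dotProduct_add, dotProduct_smul, dotProduct_single, mul_one, smul_eq_mul]
    ring

theorem root_ne_smul {a b : Fin n → ℤ} (h : LI a b) : a ≠ 0 := by
  rintro rfl
  obtain ⟨p, q, h⟩ := h
  simp at h

/-- The eigenvalue relation. -/
theorem eig_of_comm {g : Matrix (Fin n) (Fin n) ℤ} {φ : Fin n → ℤ} (j : Fin n)
    {w : Fin n → ℤ} (h : g * vecMulVec w φ = vecMulVec w φ * g) :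
    φ j • (g *ᵥ w) = (φ ᵥ* g) j • w := by
  rw [mul_vecMulVec, vecMulVec_mul] at h
  ext i
  have := congrFun (congrFun h i) j
  rw [vecMulVec_apply, vecMulVec_apply] at this
  simp only [Pi.smul_apply, smul_eq_mul]
  linarith

/-- Elements of determinant one commuting with two large root subgroups are `±1`. -/
theorem eq_pm_one (hn : 3 ≤ n) {g : Matrix (Fin n) (Fin n) ℤ} (hg : g.det = 1)
    {a b : Fin n → ℤ} (hab : LI a b)
    (h1 : ∀ w, a ⬝ᵥ w = 0 → g * vecMulVec w a = vecMulVec w a * g)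
    (h2 : ∀ w, b ⬝ᵥ w = 0 → g * vecMulVec w b = vecMulVec w b * g) : g = 1 ∨ g = -1 := by
  obtain ⟨u, hu0, hu1, hu2⟩ := exists_common_kernel hn hab
  obtain ⟨j, hj⟩ := Function.ne_iff.mp (root_ne_smul hab)
  obtain ⟨k, hk⟩ := Function.ne_iff.mp (root_ne_smul hab.symm)
  simp only [Pi.zero_apply] at hj hk
  obtain ⟨i, hi⟩ := Function.ne_iff.mp hu0
  simp only [Pi.zero_apply] at hi
  have hE1 : ∀ w, a ⬝ᵥ w = 0 → a j • (g *ᵥ w) = (a ᵥ* g) j • w :=
    fun w hw => eig_of_comm j (h1 w hw)
  have hE2 : ∀ w, b ⬝ᵥ w = 0 → b k • (g *ᵥ w) = (b ᵥ* g) k • w :=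
    fun w hw => eig_of_comm k (h2 w hw)
  set A := a j
  set B := b k
  set A' := (a ᵥ* g) j
  set B' := (b ᵥ* g) k
  have hcross : A * B' = B * A' := by
    have e1 := congrFun (hE1 u hu1) i
    have e2 := congrFun (hE2 u hu2) i
    simp only [Pi.smul_apply, smul_eq_mul] at e1 e2
    have : (A * B' - B * A') * u i = 0 := by
      linear_combination A * e2 * (-1) + B * e1
    rcases mul_eq_zero.mp this with h | h
    · linarith
    · exact absurd h hi
  obtain ⟨p, q, hpq⟩ := hab
  set D := a p * b q - a q * b p with hD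
  set e : Fin n → ℤ := a p • Pi.single q 1 - a q • Pi.single p 1 with he
  have hae : a ⬝ᵥ e = 0 := by
    simp only [he, dotProduct_sub, dotProduct_smul, dotProduct_single, mul_one, smul_eq_mul]
    ring
  have hbe : b ⬝ᵥ e = D := by
    simp only [he, dotProduct_sub, dotProduct_smul, dotProduct_single, mul_one, smul_eq_mul, hD]
  have hall : ∀ w, B • (g *ᵥ w) = B' • w := by
    intro w
    have f1 := hE1 ((b ⬝ᵥ w) • e) (by rw [dotProduct_smul, hae, smul_zero])
    have f2 := hE2 (D • w - (b ⬝ᵥ w) • e) (by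
      rw [dotProduct_sub, dotProduct_smul, dotProduct_smul, hbe]
      simp only [smul_eq_mul]; ring)
    ext i
    have f1 := congrFun f1 i
    have f2 := congrFun f2 i
    simp only [mulVec_sub, mulVec_smul, Pi.smul_apply, Pi.sub_apply, smul_eq_mul] at f1 f2 ⊢
    have : (A * D) * (B * (g *ᵥ w) i - B' * w i) = 0 := by
      linear_combination B * f1 + A * f2 - ((b ⬝ᵥ w) * e i) * hcross
    rcases mul_eq_zero.mp this with h | h
    · rcases mul_eq_zero.mp h with h | h
      · exact absurd h hj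
      · exact absurd h hpq
    · linarith
  have hmat : B • g = B' • (1 : Matrix (Fin n) (Fin n) ℤ) := by
    ext i l
    have := congrFun (hall (Pi.single l 1)) i
    simp only [mulVec_single, Pi.smul_apply, smul_eq_mul, col_apply, MulOpposite.op_one,
      one_smul] at this
    simp only [Matrix.smul_apply, smul_eq_mul, Matrix.one_apply]
    rw [this, Pi.single_apply]
  have hdet : B ^ n = B' ^ n := by
    have := congrArg Matrix.det hmat
    rw [det_smul, det_smul, hg, det_one, Fintype.card_fin] at this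
    linarith
  have habs : |B| = |B'| := by
    have h3 : |B| ^ n = |B'| ^ n := by rw [← abs_pow, ← abs_pow, hdet]
    exact (pow_left_inj₀ (abs_nonneg _) (abs_nonneg _) (by omega)).mp h3
  rcases abs_eq_abs.mp habs with h | h
  · left
    ext i l
    have := congrFun (congrFun hmat i) l
    rw [← h] at this
    simp only [Matrix.smul_apply, smul_eq_mul] at this
    exact mul_left_cancel₀ hk this
  · right
    ext i l
    have := congrFun (congrFun hmat i) l
    have h' : B' = -B := by linarith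
    rw [h'] at this
    simp only [Matrix.smul_apply, smul_eq_mul] at this
    apply mul_left_cancel₀ hk
    rw [this, Matrix.neg_apply]; ring

/-- A functional killing `v` and not proportional to `φ`. -/
theorem exists_LI (hn : 3 ≤ n) {v φ : Fin n → ℤ} (hv : v ≠ 0) (hφ : φ ≠ 0) :
    ∃ ψ : Fin n → ℤ, ψ ⬝ᵥ v = 0 ∧ LI φ ψ := by
  obtain ⟨i, hi⟩ := Function.ne_iff.mp hv
  simp only [Pi.zero_apply] at hi
  obtain ⟨j, hj, _⟩ := exists_third hn i i
  obtain ⟨k, hki, hkj⟩ := exists_third hn i j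
  have hker : ∀ l : Fin n, (v i • Pi.single l 1 - v l • Pi.single i 1 : Fin n → ℤ) ⬝ᵥ v = 0 := by
    intro l
    simp only [sub_dotProduct, smul_dotProduct, single_dotProduct, one_mul, smul_eq_mul]
    ring
  by_contra hcon
  push Not at hcon
  have c1 := hcon _ (hker j)
  have c2 := hcon _ (hker k)
  simp only [LI, not_exists, not_not, Pi.sub_apply, Pi.smul_apply, Pi.single_apply,
    smul_eq_mul] at c1 c2
  have f1 := c1 k j
  simp [hkj, hj, hki] at f1
  have f2 := c2 j k
  simp [hj, hki, Ne.symm hkj] at f2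
  apply hφ
  ext p
  rw [Pi.zero_apply]
  have f1' : φ k = 0 := by
    rcases f1 with h | h
    · exact h
    · exact absurd h hi
  have f2' : φ j = 0 := by
    rcases f2 with h | h
    · exact h
    · exact absurd h hi
  by_cases hpj : p = j
  · rw [hpj, f2']
  have f3 := c1 p j
  rw [f2'] at f3
  simp [hj] at f3
  rcases f3 with h | h
  · exact h
  · exact absurd h hi

end Vale.Agent.P092.H350
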