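import Vale.Agent.P092.H350.LinAlg

/-!
Tight subspaces of root elements in finite index subgroups of `SL_n(ℤ)`.
-/

namespace Vale.Agent.P092.H350

open Matrix Vale.Agent.P092.H160
open scoped InnerProductSpace

set_option linter.unusedSectionVars false

variable {n : ℕ}

/-- `g` commutes with `w ⊗ φ` for all `w` in the kernel of `φ`. -/
def K (g : Matrix (Fin n) (Fin n) ℤ) (φ : Fin n → ℤ) : Prop :=
  ∀ w, φ ⬝ᵥ w = 0 → g * vecMulVec w φ = vecMulVec w φ * g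

theorem K_conj {G G' g : Matrix (Fin n) (Fin n) ℤ} (h1 : G * G' = 1)
    {φ : Fin n → ℤ} (h : K (G' * g * G) φ) : K g (φ ᵥ* G') := by
  intro w hw
  have hw' : φ ⬝ᵥ (G' *ᵥ w) = 0 := by rw [dotProduct_mulVec]; exact hw
  have h3 := h _ hw'
  have e1 : G * vecMulVec (G' *ᵥ w) φ * G' = vecMulVec w (φ ᵥ* G') := by
    rw [mul_vecMulVec, vecMulVec_mul, mulVec_mulVec, h1, one_mulVec]
  calc g * vecMulVec w (φ ᵥ* G')
      = g * (G * vecMulVec (G' *ᵥ w) φ * G') := by rw [e1]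
    _ = (G * G') * g * (G * vecMulVec (G' *ᵥ w) φ * G') := by rw [h1, one_mul]
    _ = G * (G' * g * G * vecMulVec (G' *ᵥ w) φ) * G' := by noncomm_ring
    _ = G * (vecMulVec (G' *ᵥ w) φ * (G' * g * G)) * G' := by rw [h3]
    _ = (G * vecMulVec (G' *ᵥ w) φ * G') * g * (G * G') := by noncomm_ring
    _ = vecMulVec w (φ ᵥ* G') * g := by rw [h1, mul_one, e1]

theorem exists_sep {a b : Fin n → ℤ} (h : LI a b) :
    ∃ e : Fin n → ℤ, a ⬝ᵥ e = 0 ∧ b ⬝ᵥ e ≠ 0 := by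
  obtain ⟨p, q, h⟩ := h
  refine ⟨a p • Pi.single q 1 - a q • Pi.single p 1, ?_, ?_⟩
  · simp only [dotProduct_sub, dotProduct_smul, dotProduct_single, mul_one, smul_eq_mul]
    ring
  · simp only [dotProduct_sub, dotProduct_smul, dotProduct_single, mul_one, smul_eq_mul]
    exact h

theorem LI_of_not {a b c : Fin n → ℤ} (hab : ¬ LI a b) (hb : b ≠ 0) (hac : LI a c) : LI b c := by
  by_contra hbc
  simp only [LI, not_exists, not_not] at hab hbc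
  obtain ⟨p, q, h⟩ := hac
  obtain ⟨k, hk⟩ := Function.ne_iff.mp hb
  simp only [Pi.zero_apply] at hk
  apply h
  have e1 := hab p k
  have e2 := hab q k
  have e3 := hbc p k
  have e4 := hbc q k
  have : (a p * c q - a q * c p) * (b k * b k) = 0 := by
    linear_combination (b k * c q) * e1 - (b k * c p) * e2 + (a k * b q) * e3 - (a k * b p) * e4
  rcases mul_eq_zero.mp this with h' | h'
  · exact h'
  · exact absurd (mul_self_eq_zero.mp h') hk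

section

variable {Γ : Subgroup (Matrix.SpecialLinearGroup (Fin n) ℤ)} [hfi : Γ.FiniteIndex]
  {Λ : Type} [Group Λ] {α : Γ →* (Ell2 Λ →L[ℂ] Ell2 Λ)}

namespace GoodRep

theorem P_congr (hα : GoodRep α) {x r : Γ} (h : Ht α x = Ht α r) : hα.P x = hα.P r := by
  ext1 ξ
  have h1 : hα.P r (hα.P x ξ) = hα.P x ξ := hα.P_eq_self (by rw [← h]; exact hα.P_mem x ξ)
  have h2 : hα.P r (ξ - hα.P x ξ) = 0 := by
    rw [P_eq_zero_iff, ← h, ← hα.P_eq_zero_iff, map_sub, P_idem, sub_self]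
  rw [map_sub, h1, sub_eq_zero] at h2
  exact h2.symm

/-- Fourier support of the projection. -/
theorem supp_K (hα : GoodRep α) {x g : Γ} {φ : Fin n → ℤ}
    (hx : ∀ w (h : φ ⬝ᵥ w = 0), Commute (root w φ h) (x : Matrix.SpecialLinearGroup (Fin n) ℤ))
    (hg : hα.c x g ≠ 0) :
    K ((g : Matrix.SpecialLinearGroup (Fin n) ℤ) : Matrix (Fin n) (Fin n) ℤ) φ := by
  intro w hw
  obtain ⟨m, hm, hc⟩ := hα.exists_zpow_comm (hx w hw) hg
  rw [root_zpow] at hc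
  have h1 := congrArg (Subtype.val :
    Matrix.SpecialLinearGroup (Fin n) ℤ → Matrix (Fin n) (Fin n) ℤ) hc.eq
  rw [Matrix.SpecialLinearGroup.coe_mul, Matrix.SpecialLinearGroup.coe_mul, root_coe, add_mul,
    mul_add, one_mul, mul_one, add_right_inj, smul_vecMulVec, smul_mul_assoc, mul_smul_comm] at h1
  exact (smul_right_injective _ hm h1).symm

theorem comm_root_zpow (v w φ : Fin n → ℤ) (hv : φ ⬝ᵥ v = 0) (hw : φ ⬝ᵥ w = 0) (a : ℤ) :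
    Commute (root w φ hw) (root v φ hv ^ a) := by
  apply Commute.zpow_right
  show _ * _ = _ * _
  rw [root_mul, root_mul]
  simp only [add_comm]

/-- Elements in the Fourier supports of the projections of two root elements. -/
theorem eq_one_of_K (hn : 3 ≤ n)
    (hΓ : ∀ g ∈ Γ, (g : Matrix (Fin n) (Fin n) ℤ) ≠ -1) {g : Γ} {a b : Fin n → ℤ} (hab : LI a b)
    (h1 : K ((g : Matrix.SpecialLinearGroup (Fin n) ℤ) : Matrix (Fin n) (Fin n) ℤ) a)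
    (h2 : K ((g : Matrix.SpecialLinearGroup (Fin n) ℤ) : Matrix (Fin n) (Fin n) ℤ) b) :
    g = 1 := by
  rcases eq_pm_one hn (g : Matrix.SpecialLinearGroup (Fin n) ℤ).det_coe hab h1 h2 with h | h
  · apply Subtype.ext
    exact sl_ext h
  · exact absurd h (hΓ _ g.2)

/-- The tight subspace of the root (v, φ) is contained in the one of (v, ψ). -/
theorem HT_le (hα : GoodRep α) (hn : 3 ≤ n)
    (hΓ : ∀ g ∈ Γ, (g : Matrix (Fin n) (Fin n) ℤ) ≠ -1) {v φ ψ : Fin n → ℤ}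
    (hφ : φ ⬝ᵥ v = 0) (hψ : ψ ⬝ᵥ v = 0) (hLI : LI φ ψ) :
    HT α (root v φ hφ) ≤ HT α (root v ψ hψ) := by
  obtain ⟨w, hw1, hw2⟩ := exists_sep hLI.symm
  have hXw : ((root v φ hφ : Matrix.SpecialLinearGroup (Fin n) ℤ) :
      Matrix (Fin n) (Fin n) ℤ) *ᵥ w - w = (φ ⬝ᵥ w) • v := by
    rw [root_coe, add_mulVec, one_mulVec, vecMulVec_mulVec]
    simp
  have hXv : ((root v φ hφ : Matrix.SpecialLinearGroup (Fin n) ℤ) :
      Matrix (Fin n) (Fin n) ℤ) *ᵥ v = v := by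
    rw [root_coe, add_mulVec, one_mulVec, vecMulVec_mulVec, hφ]
    simp
  have hψX : ψ ᵥ* ((root v φ hφ : Matrix.SpecialLinearGroup (Fin n) ℤ) :
      Matrix (Fin n) (Fin n) ℤ) = ψ := by
    rw [root_coe, vecMul_add, vecMul_one, vecMul_vecMulVec, hψ]
    simp
  have hH := heis_left (root v φ hφ) w ψ hψX hw1 (by rw [hXw, mulVec_smul, hXv])
  obtain ⟨a, b, x, y, r, ha, hb, ex, ey, er, hH'⟩ := heis_lift (Γ := Γ) hH
  have h1 : Ht α x = HT α (root v φ hφ) :=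
    hα.HT_eq (m := 1) one_ne_zero ha (by rw [zpow_one, ex])
  have h2 : Ht α r = HT α (root v ψ hψ) := by
    refine hα.HT_eq (m := 1) (l := (φ ⬝ᵥ w) * (a * b)) one_ne_zero
      (mul_ne_zero hw2 (mul_ne_zero ha hb)) ?_
    have e : root (((root v φ hφ : Matrix.SpecialLinearGroup (Fin n) ℤ) :
        Matrix (Fin n) (Fin n) ℤ) *ᵥ w - w) ψ (by rw [hXw, dotProduct_smul, hψ, smul_zero])
        = root v ψ hψ ^ (φ ⬝ᵥ w) := by
      rw [root_zpow]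
      simp only [hXw]
    rw [zpow_one, er, e, ← _root_.zpow_mul]
  rw [← h1, ← h2]
  apply hα.step_le hH'
  intro g hg
  -- the support of the conjugates
  have hsupp : ∀ m : ℕ, hα.c (y ^ m * x * (y ^ m)⁻¹) g ≠ 0 →
      K ((g : Matrix.SpecialLinearGroup (Fin n) ℤ) : Matrix (Fin n) (Fin n) ℤ)
        (φ - (b * m * (φ ⬝ᵥ w)) • ψ) := by
    intro m hm
    have e1 : hα.c (y ^ m * x * (y ^ m)⁻¹) g = hα.c x ((y ^ m)⁻¹ * g * y ^ m) := by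
      rw [← hα.c_conj x _ (y ^ m)]
      congr 1
      group
    rw [e1] at hm
    have h3 := hα.supp_K (φ := φ) (fun u hu => by
      rw [ex]; exact comm_root_zpow v u φ hφ hu a) hm
    have ey1 : ((y ^ m : Γ) : Matrix.SpecialLinearGroup (Fin n) ℤ)
        = root ((b * m) • w) ψ (by rw [dotProduct_smul, hw1, smul_zero]) := by
      push_cast
      rw [ey, ← zpow_natCast, ← _root_.zpow_mul, root_zpow]
    have ey2 : (((y ^ m)⁻¹ : Γ) : Matrix.SpecialLinearGroup (Fin n) ℤ)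
        = root ((-(b * m)) • w) ψ (by rw [dotProduct_smul, hw1, smul_zero]) := by
      push_cast
      rw [ey, ← zpow_natCast, ← _root_.zpow_mul, ← _root_.zpow_neg, root_zpow]
    have e2 : ((((y ^ m)⁻¹ * g * y ^ m : Γ) : Matrix.SpecialLinearGroup (Fin n) ℤ) :
        Matrix (Fin n) (Fin n) ℤ) =
        (((((y ^ m)⁻¹ : Γ) : Matrix.SpecialLinearGroup (Fin n) ℤ)) : Matrix (Fin n) (Fin n) ℤ) *
        ((g : Matrix.SpecialLinearGroup (Fin n) ℤ) : Matrix (Fin n) (Fin n) ℤ) *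
        ((((y ^ m : Γ) : Matrix.SpecialLinearGroup (Fin n) ℤ)) : Matrix (Fin n) (Fin n) ℤ) := rfl
    rw [e2] at h3
    have h4 := K_conj (G := ((((y ^ m : Γ) : Matrix.SpecialLinearGroup (Fin n) ℤ)) :
        Matrix (Fin n) (Fin n) ℤ)) (G' := (((((y ^ m)⁻¹ : Γ) :
        Matrix.SpecialLinearGroup (Fin n) ℤ)) : Matrix (Fin n) (Fin n) ℤ)) ?_ h3
    · rw [ey2, root_coe, vecMul_add, vecMul_one, vecMul_vecMulVec] at h4
      have e3 : φ + (φ ⬝ᵥ (-(b * m)) • w) • ψ = φ - (b * m * (φ ⬝ᵥ w)) • ψ := by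
        rw [dotProduct_smul, smul_eq_mul, sub_eq_add_neg, ← neg_smul]
        congr 2
        ring
      have e4 : φ + (φ ⬝ᵥ (-(b * ↑m)) • w) • ψ = φ - (b * m * (φ ⬝ᵥ w)) • ψ := e3
      rw [e4] at h4
      exact h4
    · rw [← Matrix.SpecialLinearGroup.coe_mul, ← Subgroup.coe_mul, mul_inv_cancel]; rfl
  by_contra hcon
  push Not at hcon
  obtain ⟨m₁, _, hm₁⟩ := hcon 0
  obtain ⟨m₂, hlt, hm₂⟩ := hcon (m₁ + 1)
  apply hg
  refine eq_one_of_K hn hΓ ?_ (hsupp m₁ hm₁) (hsupp m₂ hm₂)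
  obtain ⟨p, q, hpq⟩ := hLI
  refine ⟨p, q, ?_⟩
  simp only [Pi.sub_apply, Pi.smul_apply, smul_eq_mul]
  have e : (φ p - b * m₁ * (φ ⬝ᵥ w) * ψ p) * (φ q - b * m₂ * (φ ⬝ᵥ w) * ψ q) -
      (φ q - b * m₁ * (φ ⬝ᵥ w) * ψ q) * (φ p - b * m₂ * (φ ⬝ᵥ w) * ψ p)
      = (b * (φ ⬝ᵥ w) * (m₁ - m₂)) * (φ p * ψ q - φ q * ψ p) := by ring
  rw [e]
  have hne : ((m₁ : ℤ) - m₂) ≠ 0 := by omega
  exact mul_ne_zero (mul_ne_zero (mul_ne_zero hb hw2) hne) hpq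

theorem HT_eq_of_LI (hα : GoodRep α) (hn : 3 ≤ n)
    (hΓ : ∀ g ∈ Γ, (g : Matrix (Fin n) (Fin n) ℤ) ≠ -1) {v φ ψ : Fin n → ℤ}
    (hφ : φ ⬝ᵥ v = 0) (hψ : ψ ⬝ᵥ v = 0) (hLI : LI φ ψ) :
    HT α (root v φ hφ) = HT α (root v ψ hψ) :=
  le_antisymm (hα.HT_le hn hΓ hφ hψ hLI) (hα.HT_le hn hΓ hψ hφ hLI.symm)

/-- The tight subspace of a root element is trivial. -/
theorem HT_bot_or_top (hα : GoodRep α) (hn : 3 ≤ n)
    (hΓ : ∀ g ∈ Γ, (g : Matrix (Fin n) (Fin n) ℤ) ≠ -1) {v φ : Fin n → ℤ}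
    (hv : v ≠ 0) (hφ0 : φ ≠ 0) (hφ : φ ⬝ᵥ v = 0) :
    HT α (root v φ hφ) = ⊥ ∨ HT α (root v φ hφ) = ⊤ := by
  obtain ⟨ψ, hψ, hLI⟩ := exists_LI hn hv hφ0
  have heq := hα.HT_eq_of_LI hn hΓ hφ hψ hLI
  obtain ⟨a, ha, hX⟩ := exists_pow_mem Γ (root v φ hφ)
  obtain ⟨b, hb, hR⟩ := exists_pow_mem Γ (root v ψ hψ)
  have h1 : Ht α ⟨_, hX⟩ = HT α (root v φ hφ) :=
    hα.HT_eq (m := 1) one_ne_zero ha (by rw [zpow_one])
  have h2 : Ht α ⟨_, hR⟩ = HT α (root v ψ hψ) :=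
    hα.HT_eq (m := 1) one_ne_zero hb (by rw [zpow_one])
  have hP := hα.P_congr (h1.trans (heq.trans h2.symm))
  rw [← h1]
  apply hα.Ht_bot_or_top
  intro g hg
  by_contra hc
  have hc2 : hα.c ⟨_, hR⟩ g ≠ 0 := by
    rw [c, ← hP]; exact hc
  apply hg
  refine eq_one_of_K hn hΓ hLI (hα.supp_K (fun u hu => ?_) hc) (hα.supp_K (fun u hu => ?_) hc2)
  · exact comm_root_zpow v u φ hφ hu a
  · exact comm_root_zpow v u ψ hψ hu b

/-- Changing the functional. -/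
theorem HT_top_left (hα : GoodRep α) (hn : 3 ≤ n)
    (hΓ : ∀ g ∈ Γ, (g : Matrix (Fin n) (Fin n) ℤ) ≠ -1) {v φ ψ : Fin n → ℤ}
    (hv : v ≠ 0) (hφ0 : φ ≠ 0) (hψ0 : ψ ≠ 0) (hφ : φ ⬝ᵥ v = 0) (hψ : ψ ⬝ᵥ v = 0)
    (h : HT α (root v φ hφ) = ⊤) : HT α (root v ψ hψ) = ⊤ := by
  by_cases hLI : LI φ ψ
  · rw [← hα.HT_eq_of_LI hn hΓ hφ hψ hLI, h]
  · obtain ⟨ρ, hρ, hLI'⟩ := exists_LI hn hv hφ0
    have h2 := LI_of_not hLI hψ0 hLI'
    rw [hα.HT_eq_of_LI hn hΓ hψ hρ h2, ← hα.HT_eq_of_LI hn hΓ hφ hρ hLI', h]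

theorem HT_top_right' (hα : GoodRep α) {v w φ : Fin n → ℤ} (hLI : LI v w)
    (hv : φ ⬝ᵥ v = 0) (hw : φ ⬝ᵥ w = 0)
    (h : HT α (root v φ hv) = ⊤) : HT α (root w φ hw) = ⊤ := by
  obtain ⟨χ, h1, h2⟩ := exists_sep hLI.symm
  rw [dotProduct_comm] at h1 h2
  have hH := heis_right v φ w χ hv hw h1
  have h3 := hα.HT_top hH h
  rw [← hα.HT_zpow (root w φ hw) (neg_ne_zero.mpr h2), root_zpow]
  exact h3

theorem HT_top_right (hα : GoodRep α) (hn : 3 ≤ n) {v w φ : Fin n → ℤ}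
    (hv0 : v ≠ 0) (hw0 : w ≠ 0) (hφ0 : φ ≠ 0) (hv : φ ⬝ᵥ v = 0) (hw : φ ⬝ᵥ w = 0)
    (h : HT α (root v φ hv) = ⊤) : HT α (root w φ hw) = ⊤ := by
  by_cases hLI : LI v w
  · exact hα.HT_top_right' hLI hv hw h
  · obtain ⟨u, hu, hLI'⟩ := exists_LI hn hφ0 hv0
    rw [dotProduct_comm] at hu
    have h2 := LI_of_not hLI hw0 hLI'
    exact hα.HT_top_right' h2.symm hu hw (hα.HT_top_right' hLI' hv hu h)

/-- If one root element is tight then all are. -/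
theorem HT_top_all (hα : GoodRep α) (hn : 3 ≤ n)
    (hΓ : ∀ g ∈ Γ, (g : Matrix (Fin n) (Fin n) ℤ) ≠ -1) {v φ w χ : Fin n → ℤ}
    (hv0 : v ≠ 0) (hφ0 : φ ≠ 0) (hw0 : w ≠ 0) (hχ0 : χ ≠ 0)
    (hφ : φ ⬝ᵥ v = 0) (hχ : χ ⬝ᵥ w = 0)
    (h : HT α (root v φ hφ) = ⊤) : HT α (root w χ hχ) = ⊤ := by
  obtain ⟨ψ, hψ0, hψv, hψw⟩ : ∃ ψ : Fin n → ℤ, ψ ≠ 0 ∧ ψ ⬝ᵥ v = 0 ∧ ψ ⬝ᵥ w = 0 := by
    by_cases hLI : LI v w
    · obtain ⟨u, h1, h2, h3⟩ := exists_common_kernel hn hLI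
      exact ⟨u, h1, by rw [dotProduct_comm]; exact h2, by rw [dotProduct_comm]; exact h3⟩
    · obtain ⟨ψ, h1, h2⟩ := exists_LI hn hv0 hφ0
      refine ⟨ψ, root_ne_smul h2.symm, h1, ?_⟩
      simp only [LI, not_exists, not_not] at hLI
      obtain ⟨q, hq⟩ := Function.ne_iff.mp hv0
      simp only [Pi.zero_apply] at hq
      have : v q * (ψ ⬝ᵥ w) = w q * (ψ ⬝ᵥ v) := by
        simp only [dotProduct, Finset.mul_sum]
        refine Finset.sum_congr rfl (fun p _ => ?_)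
        linear_combination (-ψ p) * hLI p q
      rw [h1, mul_zero] at this
      rcases mul_eq_zero.mp this with h | h
      · exact absurd h hq
      · exact h
  exact hα.HT_top_left hn hΓ hw0 hψ0 hχ0 hψw hχ
    (hα.HT_top_right hn hv0 hw0 hψ0 hψv hψw (hα.HT_top_left hn hΓ hv0 hφ0 hψ0 hφ hψv h))

end GoodRep

end

end Vale.Agent.P092.H350
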