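import Vale.Agent.P092.H350.Sub

/-!
Heisenberg relations and tight subspaces.
-/

namespace Vale.Agent.P092.H350

open Vale.Agent.P092.H160
open scoped InnerProductSpace

set_option linter.unusedSectionVars false

variable {Γ Λ : Type} [Group Γ] [Group Λ]

theorem inner_self_ell2 {X : Type} (ξ : Ell2 X) : ⟪ξ, ξ⟫_ℂ = ((‖ξ‖ ^ 2 : ℝ) : ℂ) := by
  rw [inner_self_eq_norm_sq_to_K]
  push_cast
  rfl

/-- `r = [x, y]` commutes with `x` and `y`. -/
structure Heis {Γ : Type} [Group Γ] (x y r : Γ) : Prop where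
  eq : x * y = r * (y * x)
  cx : Commute r x
  cy : Commute r y

theorem Heis.pow {x y r : Γ} (h : Heis x y r) (m : ℤ) : Heis x (y ^ m) (r ^ m) where
  cx := h.cx.zpow_left m
  cy := h.cy.zpow_zpow m m
  eq := by
    have h1 : x * y * x⁻¹ = r * y := by rw [h.eq]; group
    have h2 : x * y ^ m * x⁻¹ = r ^ m * y ^ m := by
      rw [← conj_zpow, h1, h.cy.mul_zpow]
    rw [← mul_assoc, ← h2]; group

theorem Heis.zpow_eq {x y r : Γ} (h : Heis x y r) (k : ℤ) :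
    r ^ k = x ^ k * (y * x * y⁻¹) ^ (-k) := by
  have h1 : (y * x * y⁻¹)⁻¹ = x⁻¹ * r := by
    have : x * (y * x * y⁻¹)⁻¹ = r := by
      calc x * (y * x * y⁻¹)⁻¹ = (x * y) * (y * x)⁻¹ := by group
        _ = r := by rw [h.eq]; group
    rw [← this]; group
  rw [zpow_neg, ← inv_zpow, h1, (h.cx.symm.inv_left).mul_zpow, inv_zpow, mul_inv_cancel_left]

namespace GoodRep

variable {α : Γ →* (Ell2 Λ →L[ℂ] Ell2 Λ)}

/-- The commutator step. -/
theorem step (hα : GoodRep α) {x y r : Γ} (h : Heis x y r) {ξ : Ell2 Λ}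
    (hξ : ξ ∈ Ht α (y * x * y⁻¹)) : hα.P x ξ ∈ Ht α r := by
  refine Tight.op (B := Set.range fun k : ℤ => α (x ^ k) * hα.P x) (C := 1) (M := ‖ξ‖)
    (S := Set.range fun k : ℤ => α ((y * x * y⁻¹) ^ k) ξ) ?_ ?_ ?_ ?_ hξ ?_
  · rintro _ ⟨k, rfl⟩
    exact (hα.rc _).mul (hα.P_rc x)
  · rintro _ ⟨k, rfl⟩
    refine ContinuousLinearMap.opNorm_le_bound _ zero_le_one (fun ζ => ?_)
    show ‖α (x ^ k) (hα.P x ζ)‖ ≤ _
    rw [hα.norm_map, one_mul]
    exact hα.P_norm x ζ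
  · rw [← Set.range_comp]
    exact hα.P_mem x (dl 1)
  · rintro _ ⟨k, rfl⟩
    simp only [hα.norm_map]
    exact le_rfl
  · rintro _ ⟨k, rfl⟩
    refine ⟨_, ⟨k, rfl⟩, _, ⟨-k, rfl⟩, ?_⟩
    show α (r ^ k) (hα.P x ξ) = α (x ^ k) (hα.P x (α ((y * x * y⁻¹) ^ (-k)) ξ))
    rw [hα.P_comm (h.cx.zpow_left k), hα.P_comm ((Commute.refl x).zpow_left k), ← mul_apply,
      ← h.zpow_eq]

/-- If the whole space is tight for `x`, it is tight for `r`. -/
theorem step_top (hα : GoodRep α) {x y r : Γ} (h : Heis x y r) (hx : Ht α x = ⊤) :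
    Ht α r = ⊤ := by
  rw [eq_top_iff]
  intro ξ _
  have h1 : ξ ∈ Ht α (y * x * y⁻¹) := by
    have := hα.conj_mem_Ht y x (ξ := α y⁻¹ ξ) (by rw [hx]; trivial)
    rwa [← mul_apply, mul_inv_cancel, one_apply] at this
  have h2 := hα.step h h1
  rwa [hα.P_eq_self (by rw [hx]; trivial)] at h2

theorem conj_top (hα : GoodRep α) (g : Γ) {x : Γ} (hx : Ht α x = ⊤) :
    Ht α (g * x * g⁻¹) = ⊤ := by
  rw [eq_top_iff]
  intro ξ _
  have := hα.conj_mem_Ht g x (ξ := α g⁻¹ ξ) (by rw [hx]; trivial)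
  rwa [← mul_apply, mul_inv_cancel, one_apply] at this

/-- the trace of the projection -/
theorem trace_conj (hα : GoodRep α) (g x : Γ) :
    ⟪(dl 1 : Ell2 Λ), hα.P (g * x * g⁻¹) (dl 1)⟫_ℂ = ⟪(dl 1 : Ell2 Λ), hα.P x (dl 1)⟫_ℂ := by
  rw [P_conj]
  have h := RC.trace_comm (hα.rc g) ((hα.P_rc x).mul (hα.rc g⁻¹))
  have h' : ⟪(dl 1 : Ell2 Λ), α g (hα.P x (α g⁻¹ (dl 1)))⟫_ℂ =
      ⟪(dl 1 : Ell2 Λ), hα.P x (α g⁻¹ (α g (dl 1)))⟫_ℂ := h
  rw [h', ← mul_apply, inv_mul_cancel, one_apply]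

theorem trace_eq_norm (hα : GoodRep α) (x : Γ) :
    ⟪(dl 1 : Ell2 Λ), hα.P x (dl 1)⟫_ℂ = ((‖hα.P x (dl 1)‖ ^ 2 : ℝ) : ℂ) := by
  rw [← inner_self_ell2]
  conv_lhs => rw [← P_idem]
  rw [← P_inner]

theorem norm_P_conj (hα : GoodRep α) (g x : Γ) :
    ‖hα.P (g * x * g⁻¹) (dl 1)‖ = ‖hα.P x (dl 1)‖ := by
  have h := hα.trace_conj g x
  rw [trace_eq_norm, trace_eq_norm] at h
  have h' : ‖hα.P (g * x * g⁻¹) (dl 1)‖ ^ 2 = ‖hα.P x (dl 1)‖ ^ 2 := by exact_mod_cast h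
  nlinarith [norm_nonneg (hα.P (g * x * g⁻¹) (dl 1)), norm_nonneg (hα.P x (dl 1)),
    sq_nonneg (‖hα.P (g * x * g⁻¹) (dl 1)‖ - ‖hα.P x (dl 1)‖)]

theorem Ht_eq_bot_of (hα : GoodRep α) {x : Γ} (h : hα.P x (dl 1) = 0) : Ht α x = ⊥ := by
  have h1 : hα.P x = 0 := by
    refine (hα.P_rc x).ext (S := 0) ?_ (by rw [h]; rfl)
    intro s ξ; simp
  rw [eq_bot_iff]
  intro ξ hξ
  rw [← hα.P_eq_self hξ, h1]
  simp

/-- From a nonzero tight subspace for `x` to one for `r = [x, y]`. -/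
theorem step_ne_bot (hα : GoodRep α) {x y r : Γ} (h : Heis x y r) (hx : Ht α x ≠ ⊥) :
    Ht α r ≠ ⊥ := by
  intro hr
  apply hx
  apply hα.Ht_eq_bot_of
  by_contra hne
  set u : ℤ → Ell2 Λ := fun m => hα.P (y ^ m * x * (y ^ m)⁻¹) (dl 1) with hu
  have hnorm : ∀ m, ‖u m‖ = ‖hα.P x (dl 1)‖ := fun m => hα.norm_P_conj _ _
  have horth : ∀ m : ℤ, m ≠ 0 → ∀ ξ ∈ Ht α (y ^ m * x * (y ^ m)⁻¹), hα.P x ξ = 0 := by
    intro m hm ξ hξ
    have h1 := hα.step (h.pow m) hξ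
    rw [hα.Ht_pow r hm, hr] at h1
    simpa using h1
  have horth2 : ∀ m l : ℤ, m ≠ l → ⟪u m, u l⟫_ℂ = 0 := by
    intro m l hml
    have e1 : u m = α (y ^ m) (hα.P x (α (y ^ m)⁻¹ (dl 1))) := hα.P_conj _ _ _
    have h3 : α (y ^ m)⁻¹ (u l) ∈ Ht α (y ^ (l - m) * x * (y ^ (l - m))⁻¹) := by
      have := hα.conj_mem_Ht (y ^ m)⁻¹ _ (hα.P_mem (y ^ l * x * (y ^ l)⁻¹) (dl 1))
      have e : (y ^ m)⁻¹ * (y ^ l * x * (y ^ l)⁻¹) * (y ^ m)⁻¹⁻¹
          = y ^ (l - m) * x * (y ^ (l - m))⁻¹ := by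
        rw [zpow_sub]; group
      rwa [e] at this
    rw [e1, hα.inner_left, P_inner, horth (l - m) (sub_ne_zero.mpr (Ne.symm hml)) _ h3,
      inner_zero_right]
  have hbessel : ∀ N : ℕ, (N : ℝ) * ‖hα.P x (dl 1)‖ ^ 2 ≤ 1 := by
    intro N
    set s : Ell2 Λ := ∑ m ∈ Finset.range N, u m with hs
    have h1 : ⟪s, s⟫_ℂ = ((N * ‖hα.P x (dl 1)‖ ^ 2 : ℝ) : ℂ) := by
      rw [hs, sum_inner]
      have : ∀ m ∈ Finset.range N, ⟪u m, ∑ l ∈ Finset.range N, u l⟫_ℂ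
          = ((‖hα.P x (dl 1)‖ ^ 2 : ℝ) : ℂ) := by
        intro m hm
        rw [inner_sum, Finset.sum_eq_single_of_mem m hm]
        · rw [inner_self_ell2, hnorm]
        · intro l _ hl
          exact horth2 _ _ (by exact_mod_cast Ne.symm hl)
      rw [Finset.sum_congr rfl this, Finset.sum_const, Finset.card_range, nsmul_eq_mul]
      push_cast; ring
    have h2 : ⟪(dl 1 : Ell2 Λ), s⟫_ℂ = ((N * ‖hα.P x (dl 1)‖ ^ 2 : ℝ) : ℂ) := by
      rw [hs, inner_sum]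
      have : ∀ m ∈ Finset.range N, ⟪(dl 1 : Ell2 Λ), u m⟫_ℂ
          = ((‖hα.P x (dl 1)‖ ^ 2 : ℝ) : ℂ) := by
        intro m _
        rw [hu]
        simp only
        rw [trace_eq_norm, norm_P_conj]
      rw [Finset.sum_congr rfl this, Finset.sum_const, Finset.card_range, nsmul_eq_mul]
      push_cast; ring
    have h3 : ‖s‖ ^ 2 = N * ‖hα.P x (dl 1)‖ ^ 2 := by
      rw [inner_self_ell2] at h1
      exact_mod_cast h1
    have h4 : N * ‖hα.P x (dl 1)‖ ^ 2 ≤ ‖s‖ := by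
      have h5 := norm_inner_le_norm (𝕜 := ℂ) (dl 1 : Ell2 Λ) s
      rw [h2, norm_dl, one_mul, Complex.norm_real, Real.norm_of_nonneg (by positivity)] at h5
      exact h5
    rw [← h3] at h4 ⊢
    nlinarith [norm_nonneg s, sq_nonneg ‖s‖]
  have hpos : 0 < ‖hα.P x (dl 1)‖ ^ 2 := by
    have : 0 < ‖hα.P x (dl 1)‖ := norm_pos_iff.mpr hne
    positivity
  obtain ⟨N, hN⟩ := exists_nat_gt (1 / ‖hα.P x (dl 1)‖ ^ 2)
  have := hbessel N
  rw [div_lt_iff₀ hpos] at hN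
  linarith

/-- The Fourier coefficients of the projection. -/
noncomputable def c (hα : GoodRep α) (x g : Γ) : ℂ := ⟪α g (dl 1), hα.P x (dl 1)⟫_ℂ

theorem c_conj (hα : GoodRep α) (x g h : Γ) :
    hα.c (h * x * h⁻¹) (h * g * h⁻¹) = hα.c x g := by
  rw [c, c, P_conj, hα.inner_left, hα.inner_left]
  have h1 := RC.trace_comm (hα.rc ((h * g * h⁻¹)⁻¹ * h)) ((hα.P_rc x).mul (hα.rc h⁻¹))
  have h2 : ⟪(dl 1 : Ell2 Λ), α ((h * g * h⁻¹)⁻¹ * h) (hα.P x (α h⁻¹ (dl 1)))⟫_ℂ =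
      ⟪(dl 1 : Ell2 Λ), hα.P x (α h⁻¹ (α ((h * g * h⁻¹)⁻¹ * h) (dl 1)))⟫_ℂ := h1
  rw [mul_apply, ← mul_apply α h⁻¹] at h2
  rw [h2]
  have e : h⁻¹ * ((h * g * h⁻¹)⁻¹ * h) = g⁻¹ := by group
  rw [e]
  exact RC.trace_comm (hα.P_rc x) (hα.rc g⁻¹)

theorem c_comm (hα : GoodRep α) {x h : Γ} (g : Γ) (hc : Commute h x) :
    hα.c x (h * g * h⁻¹) = hα.c x g := by
  have h1 := hα.c_conj x g h
  rwa [hc.eq, mul_inv_cancel_right] at h1

theorem orthonormal (hα : GoodRep α) : Orthonormal ℂ (fun g : Γ => α g (dl 1 : Ell2 Λ)) := by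
  classical
  rw [orthonormal_iff_ite]
  intro g h
  rw [hα.inner_left, ← mul_apply]
  split_ifs with e
  · subst e
    rw [inv_mul_cancel, one_apply, inner_self_eq_norm_sq_to_K, norm_dl]; simp
  · exact hα.orth _ (fun h' => e (inv_mul_eq_one.mp h'))

/-- If the Fourier coefficient of the projection at `g` is nonzero and `h` commutes with `x`,
then a nonzero power of `h` commutes with `g`. -/
theorem exists_pow_comm (hα : GoodRep α) {x g h : Γ} (hc : Commute h x) (hg : hα.c x g ≠ 0) :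
    ∃ m : ℕ, m ≠ 0 ∧ Commute (h ^ m) g := by
  by_contra hcon
  push Not at hcon
  have hinj : Function.Injective (fun m : ℕ => h ^ m * g * (h ^ m)⁻¹) := by
    have key : ∀ m l : ℕ, m < l → h ^ m * g * (h ^ m)⁻¹ ≠ h ^ l * g * (h ^ l)⁻¹ := by
      intro m l hml e
      obtain ⟨d, rfl⟩ := Nat.exists_eq_add_of_lt hml
      apply hcon (d + 1) (by omega)
      have e2 : h ^ (m + d + 1) = h ^ m * h ^ (d + 1) := by rw [← pow_add]; rfl
      rw [e2] at e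
      have e3 : g = h ^ (d + 1) * g * (h ^ (d + 1))⁻¹ := by
        have := congrArg (fun z => (h ^ m)⁻¹ * z * h ^ m) e
        simp only [mul_inv_rev] at this
        calc g = (h ^ m)⁻¹ * (h ^ m * g * (h ^ m)⁻¹) * h ^ m := by group
          _ = (h ^ m)⁻¹ * (h ^ m * h ^ (d + 1) * g * ((h ^ (d + 1))⁻¹ * (h ^ m)⁻¹)) * h ^ m := this
          _ = h ^ (d + 1) * g * (h ^ (d + 1))⁻¹ := by group
      show h ^ (d + 1) * g = g * h ^ (d + 1)
      conv_rhs => rw [e3]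
      group
    intro m l e
    rcases lt_trichotomy m l with h1 | h1 | h1
    · exact absurd e (key _ _ h1)
    · exact h1
    · exact absurd e.symm (key _ _ h1)
  have hsum := (hα.orthonormal.inner_products_summable (x := hα.P x (dl 1))).comp_injective hinj
  have hconst : ((fun i : Γ => ‖⟪α i (dl 1 : Ell2 Λ), hα.P x (dl 1)⟫_ℂ‖ ^ 2) ∘
      fun m : ℕ => h ^ m * g * (h ^ m)⁻¹) = fun _ => ‖hα.c x g‖ ^ 2 := by
    funext m
    show ‖hα.c x (h ^ m * g * (h ^ m)⁻¹)‖ ^ 2 = _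
    rw [hα.c_comm g (hc.pow_left m)]
  rw [hconst] at hsum
  have := (summable_const_iff _).mp hsum
  exact hg (by simpa using this)

/-- If all the Fourier coefficients of the projection at `g ≠ 1` vanish then it is trivial. -/
theorem Ht_bot_or_top (hα : GoodRep α) {x : Γ} (h : ∀ g, g ≠ 1 → hα.c x g = 0) :
    Ht α x = ⊥ ∨ Ht α x = ⊤ := by
  set t : ℂ := hα.c x 1 with ht
  have h1 : hα.P x (dl 1) = t • (dl 1 : Ell2 Λ) := by
    have horth : ∀ ζ ∈ (Submodule.span ℂ (Set.range fun g => α g (dl 1 : Ell2 Λ))).topologicalClosure,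
        ⟪ζ, hα.P x (dl 1) - t • (dl 1 : Ell2 Λ)⟫_ℂ = 0 := by
      intro ζ hζ
      have hclosed : IsClosed {ζ : Ell2 Λ | ⟪ζ, hα.P x (dl 1) - t • (dl 1 : Ell2 Λ)⟫_ℂ = 0} :=
        isClosed_eq (by fun_prop) continuous_const
      refine closure_minimal ?_ hclosed hζ
      intro ζ hζ
      refine Submodule.span_induction ?_ ?_ ?_ ?_ hζ
      · rintro _ ⟨g, rfl⟩
        simp only
        rw [Set.mem_ofPred_eq, inner_sub_right, inner_smul_right]
        by_cases hg : g = 1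
        · subst hg
          rw [ht, c]
          simp only [one_apply]
          rw [inner_self_eq_norm_sq_to_K, norm_dl]
          simp
        · have h2 := h g hg
          rw [c] at h2
          rw [h2, hα.inner_left, hα.orth _ (inv_ne_one.mpr hg)]
          simp
      · simp
      · intro a b _ _ ha hb
        rw [Set.mem_ofPred_eq] at ha hb ⊢
        rw [inner_add_left, ha, hb, add_zero]
      · intro a b _ hb
        rw [Set.mem_ofPred_eq] at hb ⊢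
        rw [inner_smul_left, hb, mul_zero]
    have := horth (hα.P x (dl 1) - t • (dl 1 : Ell2 Λ)) (by rw [hα.tot]; trivial)
    rw [inner_self_eq_zero] at this
    exact sub_eq_zero.mp this
  have h2 : hα.P x = t • (1 : Ell2 Λ →L[ℂ] Ell2 Λ) :=
    (hα.P_rc x).ext (RC.one.smul t) h1
  have h3 : t • (t • (dl 1 : Ell2 Λ)) = t • (dl 1 : Ell2 Λ) := by
    have := hα.P_idem x (dl 1)
    rw [h2] at this
    simpa using this
  have hdl : (dl 1 : Ell2 Λ) ≠ 0 := by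
    intro e
    have := norm_dl (1 : Λ)
    rw [e, norm_zero] at this
    exact zero_ne_one this
  have h4 : t * t = t := by
    rw [smul_smul] at h3
    exact smul_left_injective ℂ hdl h3
  rcases (IsIdempotentElem.iff_eq_zero_or_one.mp h4).symm with h5 | h5
  · right
    rw [eq_top_iff]
    intro ξ _
    have := hα.P_mem x ξ
    rw [h2, h5] at this
    simpa using this
  · left
    apply hα.Ht_eq_bot_of
    rw [h1, h5, zero_smul]

/-- If the conjugates of the projection under the powers of `y` converge weakly to a scalar then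
`Ht x ≤ Ht r`. -/
theorem step_le (hα : GoodRep α) {x y r : Γ} (h : Heis x y r)
    (hfin : ∀ g, g ≠ 1 → ∃ M : ℕ, ∀ m : ℕ, M ≤ m → hα.c (y ^ m * x * (y ^ m)⁻¹) g = 0) :
    Ht α x ≤ Ht α r := by
  by_cases h0 : hα.P x (dl 1) = 0
  · rw [hα.Ht_eq_bot_of h0]; exact bot_le
  set t : ℝ := ‖hα.P x (dl 1)‖ ^ 2 with ht
  have ht0 : 0 < t := by
    have : 0 < ‖hα.P x (dl 1)‖ := norm_pos_iff.mpr h0
    positivity
  set u : ℕ → Ell2 Λ := fun m => hα.P (y ^ m * x * (y ^ m)⁻¹) (dl 1) with hu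
  have hu1 : ∀ m, ‖u m‖ ≤ 1 := fun m => by
    have := hα.P_norm (y ^ m * x * (y ^ m)⁻¹) (dl 1)
    rwa [norm_dl] at this
  have hspan : ∀ ζ ∈ Submodule.span ℂ (Set.range fun g => α g (dl 1 : Ell2 Λ)),
      ∃ M : ℕ, ∀ m : ℕ, M ≤ m → ⟪ζ, u m⟫_ℂ = (t : ℂ) * ⟪ζ, (dl 1 : Ell2 Λ)⟫_ℂ := by
    intro ζ hζ
    refine Submodule.span_induction ?_ ?_ ?_ ?_ hζ
    · rintro _ ⟨g, rfl⟩
      by_cases hg : g = 1
      · subst hg
        refine ⟨0, fun m _ => ?_⟩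
        simp only [one_apply]
        rw [hu]
        simp only
        rw [trace_eq_norm, norm_P_conj, inner_self_ell2, norm_dl]
        simp [ht]
      · obtain ⟨M, hM⟩ := hfin g hg
        refine ⟨M, fun m hm => ?_⟩
        have := hM m hm
        rw [c] at this
        simp only
        rw [hα.inner_left g (dl 1) (dl 1), hα.orth _ (inv_ne_one.mpr hg), mul_zero]
        exact this
    · exact ⟨0, fun m _ => by simp⟩
    · rintro a b _ _ ⟨M, hM⟩ ⟨N, hN⟩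
      refine ⟨max M N, fun m hm => ?_⟩
      rw [inner_add_left, inner_add_left, hM m (le_trans (le_max_left _ _) hm),
        hN m (le_trans (le_max_right _ _) hm), mul_add]
    · rintro a b _ ⟨M, hM⟩
      refine ⟨M, fun m hm => ?_⟩
      rw [inner_smul_left, inner_smul_left, hM m hm]; ring
  have hlim : ∀ ζ : Ell2 Λ, (∀ m : ℕ, m ≠ 0 → ⟪ζ, u m⟫_ℂ = 0) → ⟪ζ, (dl 1 : Ell2 Λ)⟫_ℂ = 0 := by
    intro ζ hζ
    have hmem : ζ ∈ closure (Submodule.span ℂ (Set.range fun g => α g (dl 1 : Ell2 Λ)) :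
        Set (Ell2 Λ)) := by
      rw [← Submodule.topologicalClosure_coe, hα.tot]; trivial
    by_contra hne
    have hpos : 0 < ‖⟪ζ, (dl 1 : Ell2 Λ)⟫_ℂ‖ := norm_pos_iff.mpr hne
    set d : ℝ := ‖⟪ζ, (dl 1 : Ell2 Λ)⟫_ℂ‖ with hd
    obtain ⟨ζ', hζ', hdist⟩ := Metric.mem_closure_iff.mp hmem (t * d / (1 + t))
      (by positivity)
    rw [dist_eq_norm] at hdist
    obtain ⟨M, hM⟩ := hspan ζ' hζ'
    have e1 := hM (M + 1) (by omega)
    have e2 : ((t : ℂ) * ⟪ζ, (dl 1 : Ell2 Λ)⟫_ℂ) =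
        (t : ℂ) * ⟪ζ - ζ', (dl 1 : Ell2 Λ)⟫_ℂ - ⟪ζ - ζ', u (M + 1)⟫_ℂ := by
      rw [inner_sub_left, inner_sub_left, hζ (M + 1) (by omega), e1]; ring
    have e3 : t * d ≤ t * ‖ζ - ζ'‖ + ‖ζ - ζ'‖ := by
      calc t * d = ‖(t : ℂ) * ⟪ζ, (dl 1 : Ell2 Λ)⟫_ℂ‖ := by
            rw [norm_mul, Complex.norm_real, Real.norm_of_nonneg ht0.le]
        _ ≤ ‖(t : ℂ) * ⟪ζ - ζ', (dl 1 : Ell2 Λ)⟫_ℂ‖ + ‖⟪ζ - ζ', u (M + 1)⟫_ℂ‖ := by
            rw [e2]; exact norm_sub_le _ _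
        _ ≤ t * ‖ζ - ζ'‖ + ‖ζ - ζ'‖ := by
            refine add_le_add ?_ ?_
            · rw [norm_mul, Complex.norm_real, Real.norm_of_nonneg ht0.le]
              refine mul_le_mul_of_nonneg_left ?_ ht0.le
              refine (norm_inner_le_norm _ _).trans ?_
              rw [norm_dl, mul_one]
            · refine (norm_inner_le_norm _ _).trans ?_
              calc ‖ζ - ζ'‖ * ‖u (M + 1)‖ ≤ ‖ζ - ζ'‖ * 1 := by
                    gcongr; exact hu1 _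
                _ = ‖ζ - ζ'‖ := mul_one _
    rw [lt_div_iff₀ (by positivity)] at hdist
    nlinarith
  set Q : Ell2 Λ →L[ℂ] Ell2 Λ := hα.P x - hα.P r * hα.P x with hQ
  have hQrc : RC Q := (hα.P_rc x).sub ((hα.P_rc r).mul (hα.P_rc x))
  have hQu : ∀ m : ℕ, m ≠ 0 → Q (u m) = 0 := by
    intro m hm
    have h1 : u m ∈ Ht α (y ^ (m : ℤ) * x * (y ^ (m : ℤ))⁻¹) := by
      rw [zpow_natCast]
      exact hα.P_mem _ _
    have h2 := hα.step (h.pow m) h1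
    rw [hα.Ht_pow r (by exact_mod_cast hm)] at h2
    show hα.P x (u m) - hα.P r (hα.P x (u m)) = 0
    rw [hα.P_eq_self h2, sub_self]
  have hQ1 : Q (dl 1) = 0 := by
    rw [← inner_self_eq_zero (𝕜 := ℂ)]
    rw [← ContinuousLinearMap.adjoint_inner_left]
    apply hlim
    intro m hm
    rw [ContinuousLinearMap.adjoint_inner_left, hQu m hm, inner_zero_right]
  have hQ0 : Q = 0 := hQrc.ext (S := 0) (fun s ξ => by simp) (by rw [hQ1]; rfl)
  intro ξ hξ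
  have h1 : Q ξ = 0 := by rw [hQ0]; rfl
  have h2 : hα.P x ξ - hα.P r (hα.P x ξ) = 0 := h1
  rw [hα.P_eq_self hξ, sub_eq_zero] at h2
  rw [h2]
  exact hα.P_mem r ξ

end GoodRep

end Vale.Agent.P092.H350
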