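import Vale.Agent.P092.H350.Tight

/-!
Operators commuting with right translations; the tight subspace of a group element.
-/

namespace Vale.Agent.P092.H350

open Vale.Agent.P092.H160
open scoped InnerProductSpace

set_option linter.unusedSectionVars false

section RCops

variable {G : Type} [Group G]

theorem inner_rt (s : G) (ξ η : Ell2 G) : ⟪rt s ξ, η⟫_ℂ = ⟪ξ, rt s⁻¹ η⟫_ℂ := by
  rw [lp.inner_eq_tsum, lp.inner_eq_tsum, ← Equiv.tsum_eq (Equiv.mulRight s)]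
  refine tsum_congr (fun h => ?_)
  simp [rt_apply]

theorem RC.adjoint {T : Ell2 G →L[ℂ] Ell2 G} (hT : RC T) :
    RC (ContinuousLinearMap.adjoint T) := by
  intro s ξ
  refine ext_inner_right ℂ (fun η => ?_)
  rw [ContinuousLinearMap.adjoint_inner_left, inner_rt, inner_rt,
    ContinuousLinearMap.adjoint_inner_left, hT]

theorem RC.mul {T S : Ell2 G →L[ℂ] Ell2 G} (hT : RC T) (hS : RC S) : RC (T * S) := by
  intro s ξ
  show T (S (rt s ξ)) = rt s (T (S ξ))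
  rw [hS, hT]

theorem RC.one : RC (1 : Ell2 G →L[ℂ] Ell2 G) := fun _ _ => rfl

theorem RC.sub {T S : Ell2 G →L[ℂ] Ell2 G} (hT : RC T) (hS : RC S) : RC (T - S) := by
  intro s ξ
  show T (rt s ξ) - S (rt s ξ) = rt s (T ξ - S ξ)
  rw [hS, hT, map_sub]

theorem RC.smul {T : Ell2 G →L[ℂ] Ell2 G} (hT : RC T) (c : ℂ) : RC (c • T) := by
  intro s ξ
  show c • T (rt s ξ) = rt s (c • T ξ)
  rw [hT, map_smul]

/-- `δ_1` is separating. -/
theorem RC.ext {T S : Ell2 G →L[ℂ] Ell2 G} (hT : RC T) (hS : RC S)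
    (h : T (dl 1) = S (dl 1)) : T = S := by
  ext1 ξ
  have h1 := (hasSum_dl ξ).mapL T
  have h2 := (hasSum_dl ξ).mapL S
  have h3 : (fun x => T ((ξ x : ℂ) • (dl x : Ell2 G))) = fun x => S ((ξ x : ℂ) • (dl x : Ell2 G)) := by
    funext x
    rw [map_smul, map_smul, hT.apply_dl, hS.apply_dl, h]
  rw [h3] at h1
  exact h1.unique h2

theorem RC.adjoint_apply {T : Ell2 G →L[ℂ] Ell2 G} (hT : RC T) (s : G) :
    (ContinuousLinearMap.adjoint T (dl 1) s : ℂ) = starRingEnd ℂ (T (dl 1) s⁻¹) := by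
  rw [← inner_dl, ContinuousLinearMap.adjoint_inner_right, hT.apply_dl, inner_dl_right, rt_apply,
    one_mul]

/-- The vector state of `δ_1` is a trace. -/
theorem RC.trace_comm {T S : Ell2 G →L[ℂ] Ell2 G} (hT : RC T) (hS : RC S) :
    ⟪(dl 1 : Ell2 G), T (S (dl 1))⟫_ℂ = ⟪(dl 1 : Ell2 G), S (T (dl 1))⟫_ℂ := by
  have key : ∀ {A B : Ell2 G →L[ℂ] Ell2 G}, RC A → RC B →
      ⟪(dl 1 : Ell2 G), A (B (dl 1))⟫_ℂ = ∑' s : G, (A (dl 1) s⁻¹ : ℂ) * B (dl 1) s := by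
    intro A B hA hB
    rw [← ContinuousLinearMap.adjoint_inner_left, lp.inner_eq_tsum]
    refine tsum_congr (fun s => ?_)
    rw [hA.adjoint_apply]
    simp [mul_comm]
  rw [key hT hS, key hS hT, ← Equiv.tsum_eq (Equiv.inv G)]
  refine tsum_congr (fun s => ?_)
  simp [mul_comm]

end RCops

variable {Γ Λ : Type} [Group Γ] [Group Λ]

/-- Unitary representations of `Γ` in the operators commuting with right translations which
extend to a trace preserving isomorphism. -/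
structure GoodRep (α : Γ →* (Ell2 Λ →L[ℂ] Ell2 Λ)) : Prop where
  adj : ∀ g, ContinuousLinearMap.adjoint (α g) = α g⁻¹
  rc : ∀ g, RC (α g)
  orth : ∀ g, g ≠ 1 → ⟪(dl 1 : Ell2 Λ), α g (dl 1)⟫_ℂ = 0
  tot : (Submodule.span ℂ (Set.range fun g => α g (dl 1))).topologicalClosure = ⊤

namespace GoodRep

variable {α : Γ →* (Ell2 Λ →L[ℂ] Ell2 Λ)}

theorem mul_apply (α : Γ →* (Ell2 Λ →L[ℂ] Ell2 Λ)) (g h : Γ) (ξ : Ell2 Λ) :
    α (g * h) ξ = α g (α h ξ) := by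
  rw [map_mul]; rfl

theorem one_apply (α : Γ →* (Ell2 Λ →L[ℂ] Ell2 Λ)) (ξ : Ell2 Λ) : α 1 ξ = ξ := by
  rw [map_one]; rfl

theorem inner_left (hα : GoodRep α) (g : Γ) (ξ η : Ell2 Λ) :
    ⟪α g ξ, η⟫_ℂ = ⟪ξ, α g⁻¹ η⟫_ℂ := by
  rw [← hα.adj, ContinuousLinearMap.adjoint_inner_right]

theorem inner_map (hα : GoodRep α) (g : Γ) (ξ η : Ell2 Λ) :
    ⟪α g ξ, α g η⟫_ℂ = ⟪ξ, η⟫_ℂ := by
  rw [hα.inner_left, ← mul_apply, inv_mul_cancel, one_apply]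

theorem norm_map (hα : GoodRep α) (g : Γ) (ξ : Ell2 Λ) : ‖α g ξ‖ = ‖ξ‖ := by
  have h := hα.inner_map g ξ ξ
  rw [inner_self_eq_norm_sq_to_K, inner_self_eq_norm_sq_to_K] at h
  have h' : ‖α g ξ‖ ^ 2 = ‖ξ‖ ^ 2 := by exact_mod_cast h
  nlinarith [norm_nonneg (α g ξ), norm_nonneg ξ, sq_nonneg (‖α g ξ‖ - ‖ξ‖)]

theorem opNorm_le (hα : GoodRep α) (g : Γ) : ‖α g‖ ≤ 1 :=
  ContinuousLinearMap.opNorm_le_bound _ zero_le_one (fun ξ => by rw [hα.norm_map, one_mul])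

/-- The subspace of the vectors whose orbit under `x` is tight. -/
def Ht (α : Γ →* (Ell2 Λ →L[ℂ] Ell2 Λ)) (x : Γ) : Submodule ℂ (Ell2 Λ) where
  carrier := {ξ | Tight (Set.range fun k : ℤ => α (x ^ k) ξ)}
  add_mem' := by
    intro ξ η hξ hη
    refine Tight.add hξ hη ?_
    rintro _ ⟨k, rfl⟩
    exact ⟨_, ⟨k, rfl⟩, _, ⟨k, rfl⟩, map_add _ _ _⟩
  zero_mem' := by
    refine (tight_singleton (0 : Ell2 Λ)).mono ?_
    rintro _ ⟨k, rfl⟩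
    simp
  smul_mem' := by
    intro c ξ hξ
    refine Tight.smul hξ c ?_
    rintro _ ⟨k, rfl⟩
    exact ⟨_, ⟨k, rfl⟩, map_smul _ _ _⟩

theorem mem_Ht {x : Γ} {ξ : Ell2 Λ} :
    ξ ∈ Ht α x ↔ Tight (Set.range fun k : ℤ => α (x ^ k) ξ) := Iff.rfl

theorem isClosed_Ht (hα : GoodRep α) (x : Γ) : IsClosed (Ht α x : Set (Ell2 Λ)) := by
  rw [← closure_subset_iff_isClosed]
  intro ξ hξ
  show Tight _
  refine tight_of_approx (fun ε hε => ?_)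
  obtain ⟨η, hη, hd⟩ := Metric.mem_closure_iff.mp hξ ε hε
  refine ⟨_, hη, ?_⟩
  rintro _ ⟨k, rfl⟩
  refine ⟨_, ⟨k, rfl⟩, ?_⟩
  rw [← map_sub, hα.norm_map, ← dist_eq_norm]
  exact hd.le

theorem Ht_complete (hα : GoodRep α) (x : Γ) : CompleteSpace (Ht α x) :=
  (hα.isClosed_Ht x).completeSpace_coe

theorem Ht_proj (hα : GoodRep α) (x : Γ) : (Ht α x).HasOrthogonalProjection :=
  haveI := hα.Ht_complete x
  inferInstance

/-- `rt s` maps tight sets to tight sets. -/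
theorem tight_rt (s : Λ) {S U : Set (Ell2 Λ)} (hS : Tight S)
    (hU : ∀ ζ ∈ U, ∃ ξ ∈ S, ζ = rt s ξ) : Tight U := by
  classical
  intro ε hε
  obtain ⟨N, hN⟩ := hS ε hε
  refine ⟨N, fun ζ hζ => ?_⟩
  obtain ⟨ξ, hξ, rfl⟩ := hU ζ hζ
  obtain ⟨F, η, h1, h2, h3⟩ := hN ξ hξ
  refine ⟨F.image (fun y => y * s), rt s η, Finset.card_image_le.trans h1, ?_, ?_⟩
  · intro y hy
    rw [rt_apply]
    apply h2
    intro hF
    exact hy (Finset.mem_image.mpr ⟨_, hF, by group⟩)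
  · rw [← map_sub, norm_rt]; exact h3

theorem rt_mem_Ht (hα : GoodRep α) (x : Γ) (s : Λ) {ξ : Ell2 Λ} (h : ξ ∈ Ht α x) :
    rt s ξ ∈ Ht α x := by
  refine tight_rt s h ?_
  rintro _ ⟨k, rfl⟩
  exact ⟨_, ⟨k, rfl⟩, hα.rc _ s ξ⟩

/-- A single operator commuting with the right translations preserves tightness. -/
theorem tight_map {T : Ell2 Λ →L[ℂ] Ell2 Λ} (hT : RC T) {S U : Set (Ell2 Λ)} {M : ℝ}
    (hM : ∀ ξ ∈ S, ‖ξ‖ ≤ M) (hS : Tight S) (hU : ∀ ζ ∈ U, ∃ ξ ∈ S, ζ = T ξ) : Tight U := by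
  refine Tight.op (B := {T}) (C := ‖T‖) (by rintro b rfl; exact hT) (by rintro b rfl; exact le_rfl)
    ?_ hM hS (fun ζ hζ => ⟨T, rfl, hU ζ hζ⟩)
  rw [Set.image_singleton]
  exact tight_singleton _

theorem pow_mem_Ht {x : Γ} {ξ : Ell2 Λ} (h : ξ ∈ Ht α x) (m : ℤ) : ξ ∈ Ht α (x ^ m) := by
  refine Tight.mono ?_ h
  rintro _ ⟨k, rfl⟩
  exact ⟨m * k, by simp only [zpow_mul]⟩

theorem mem_Ht_of_pow (hα : GoodRep α) {x : Γ} {ξ : Ell2 Λ} {m : ℤ} (hm : m ≠ 0)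
    (h : ξ ∈ Ht α (x ^ m)) : ξ ∈ Ht α x := by
  have h1 : ∀ j : Fin m.natAbs, Tight ((fun η => α (x ^ (j : ℤ)) η) ''
      Set.range fun k : ℤ => α ((x ^ m) ^ k) ξ) := by
    intro j
    refine tight_map (hα.rc (x ^ (j : ℤ))) (M := ‖ξ‖) ?_ h ?_
    · rintro _ ⟨k, rfl⟩
      simp only [hα.norm_map]
      exact le_rfl
    · rintro _ ⟨η, hη, rfl⟩
      exact ⟨η, hη, rfl⟩
  refine Tight.mono ?_ (tight_iUnion _ h1)
  rintro _ ⟨k, rfl⟩
  rw [Set.mem_iUnion]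
  have hlt : (k % m).toNat < m.natAbs := by
    have h1 := Int.emod_lt_abs k hm
    have h2 := Int.emod_nonneg k hm
    rw [Int.abs_eq_natAbs] at h1
    omega
  refine ⟨⟨(k % m).toNat, hlt⟩, _, ⟨k / m, rfl⟩, ?_⟩
  simp only
  rw [← mul_apply, ← zpow_mul, ← zpow_add, Int.toNat_of_nonneg (Int.emod_nonneg k hm)]
  congr 2
  rw [Int.emod_add_mul_ediv]

theorem Ht_pow (hα : GoodRep α) (x : Γ) {m : ℤ} (hm : m ≠ 0) : Ht α (x ^ m) = Ht α x :=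
  le_antisymm (fun _ h => hα.mem_Ht_of_pow hm h) (fun _ h => pow_mem_Ht h m)

/-- Operators commuting with right translations and with `α x` preserve `Ht x`. -/
theorem map_mem_Ht (hα : GoodRep α) {x : Γ} {T : Ell2 Λ →L[ℂ] Ell2 Λ} (hT : RC T)
    (hc : ∀ ξ, T (α x ξ) = α x (T ξ)) {ξ : Ell2 Λ} (h : ξ ∈ Ht α x) : T ξ ∈ Ht α x := by
  have hc' : ∀ ξ, T (α x⁻¹ ξ) = α x⁻¹ (T ξ) := by
    intro ξ
    have := hc (α x⁻¹ ξ)
    rw [← mul_apply, mul_inv_cancel, one_apply] at this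
    rw [this, ← mul_apply, inv_mul_cancel, one_apply]
  have hk : ∀ (k : ℤ) (ξ), T (α (x ^ k) ξ) = α (x ^ k) (T ξ) := by
    intro k
    induction k using Int.induction_on with
    | zero => intro ξ; rw [zpow_zero, one_apply, one_apply]
    | succ k ih => intro ξ; rw [zpow_add_one, mul_apply, mul_apply, ih, hc]
    | pred k ih => intro ξ; rw [zpow_sub_one, mul_apply, mul_apply, ih, hc']
  refine tight_map hT (M := ‖ξ‖) ?_ h ?_
  · rintro _ ⟨k, rfl⟩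
    simp only [hα.norm_map]
    exact le_rfl
  · rintro _ ⟨k, rfl⟩
    exact ⟨_, ⟨k, rfl⟩, (hk k ξ).symm⟩

theorem conj_mem_Ht (hα : GoodRep α) (g x : Γ) {ξ : Ell2 Λ} (h : ξ ∈ Ht α x) :
    α g ξ ∈ Ht α (g * x * g⁻¹) := by
  refine tight_map (hα.rc g) (M := ‖ξ‖) ?_ h ?_
  · rintro _ ⟨k, rfl⟩
    simp only [hα.norm_map]
    exact le_rfl
  · rintro _ ⟨k, rfl⟩
    refine ⟨_, ⟨k, rfl⟩, ?_⟩
    simp only
    rw [← mul_apply, ← mul_apply, conj_zpow, inv_mul_cancel_right]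

/-- The projection onto the tight subspace. -/
noncomputable def P (hα : GoodRep α) (x : Γ) : Ell2 Λ →L[ℂ] Ell2 Λ :=
  haveI := hα.Ht_proj x
  (Ht α x).starProjection

theorem P_mem (hα : GoodRep α) (x : Γ) (ξ : Ell2 Λ) : hα.P x ξ ∈ Ht α x := by
  have := hα.Ht_proj x
  exact (Ht α x).starProjection_apply_mem ξ

theorem P_eq_self (hα : GoodRep α) {x : Γ} {ξ : Ell2 Λ} (h : ξ ∈ Ht α x) : hα.P x ξ = ξ := by
  have := hα.Ht_proj x
  exact Submodule.starProjection_eq_self_iff.mpr h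

theorem P_adjoint (hα : GoodRep α) (x : Γ) :
    ContinuousLinearMap.adjoint (hα.P x) = hα.P x := by
  have := hα.Ht_proj x
  have h : IsSelfAdjoint (Ht α x).starProjection := isSelfAdjoint_starProjection _
  exact h

theorem P_inner (hα : GoodRep α) (x : Γ) (ξ η : Ell2 Λ) :
    ⟪hα.P x ξ, η⟫_ℂ = ⟪ξ, hα.P x η⟫_ℂ := by
  conv_rhs => rw [← hα.P_adjoint x]
  rw [ContinuousLinearMap.adjoint_inner_right]

theorem P_idem (hα : GoodRep α) (x : Γ) (ξ : Ell2 Λ) : hα.P x (hα.P x ξ) = hα.P x ξ :=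
  hα.P_eq_self (hα.P_mem x ξ)

theorem P_norm (hα : GoodRep α) (x : Γ) (ξ : Ell2 Λ) : ‖hα.P x ξ‖ ≤ ‖ξ‖ := by
  have := hα.Ht_proj x
  exact (Ht α x).norm_starProjection_apply_le ξ

theorem P_eq_zero_iff (hα : GoodRep α) (x : Γ) (ξ : Ell2 Λ) :
    hα.P x ξ = 0 ↔ ∀ η ∈ Ht α x, ⟪η, ξ⟫_ℂ = 0 := by
  constructor
  · intro h η hη
    rw [← hα.P_eq_self hη, P_inner, h, inner_zero_right]
  · intro h
    have h1 := h _ (hα.P_mem x ξ)
    rw [P_inner, ← P_idem, ← P_inner, inner_self_eq_zero] at h1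
    exact h1

/-- If `T` and its adjoint preserve `Ht x` then `T` commutes with the projection. -/
theorem P_comm_of (hα : GoodRep α) {x : Γ} {T : Ell2 Λ →L[ℂ] Ell2 Λ}
    (h1 : ∀ ξ ∈ Ht α x, T ξ ∈ Ht α x)
    (h2 : ∀ ξ ∈ Ht α x, ContinuousLinearMap.adjoint T ξ ∈ Ht α x) (ξ : Ell2 Λ) :
    T (hα.P x ξ) = hα.P x (T ξ) := by
  have h3 : hα.P x (T (ξ - hα.P x ξ)) = 0 := by
    rw [P_eq_zero_iff]
    intro η hη
    rw [← ContinuousLinearMap.adjoint_inner_left]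
    have := (hα.P_eq_zero_iff x (ξ - hα.P x ξ)).mp (by rw [map_sub, P_idem, sub_self])
    exact this _ (h2 η hη)
  rw [map_sub, map_sub, sub_eq_zero] at h3
  rw [h3, hα.P_eq_self (h1 _ (hα.P_mem x ξ))]

theorem P_rc (hα : GoodRep α) (x : Γ) : RC (hα.P x) := by
  intro s ξ
  refine (hα.P_comm_of (T := rt s) (fun ξ hξ => hα.rt_mem_Ht x s hξ) (fun ξ hξ => ?_) ξ).symm
  have : ContinuousLinearMap.adjoint (rt s) = rt s⁻¹ := by
    symm
    rw [ContinuousLinearMap.eq_adjoint_iff]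
    intro a b
    rw [inner_rt, inv_inv]
  rw [this]
  exact hα.rt_mem_Ht x s⁻¹ hξ

theorem P_comm (hα : GoodRep α) {x h : Γ} (hc : Commute h x) (ξ : Ell2 Λ) :
    α h (hα.P x ξ) = hα.P x (α h ξ) := by
  refine hα.P_comm_of (T := α h) (fun ξ hξ => ?_) (fun ξ hξ => ?_) ξ
  · refine hα.map_mem_Ht (hα.rc h) (fun ζ => ?_) hξ
    rw [← mul_apply, ← mul_apply, hc.eq]
  · rw [hα.adj]
    refine hα.map_mem_Ht (hα.rc h⁻¹) (fun ζ => ?_) hξ
    rw [← mul_apply, ← mul_apply, hc.inv_left.eq]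

theorem P_conj (hα : GoodRep α) (g x : Γ) (ξ : Ell2 Λ) :
    hα.P (g * x * g⁻¹) ξ = α g (hα.P x (α g⁻¹ ξ)) := by
  have hmem : α g (hα.P x (α g⁻¹ ξ)) ∈ Ht α (g * x * g⁻¹) :=
    hα.conj_mem_Ht g x (hα.P_mem x _)
  rw [← hα.P_eq_self hmem, ← sub_eq_zero, ← map_sub, P_eq_zero_iff]
  intro η hη
  have hη' : α g⁻¹ η ∈ Ht α x := by
    have := hα.conj_mem_Ht g⁻¹ _ hη
    have e : g⁻¹ * (g * x * g⁻¹) * g⁻¹⁻¹ = x := by group
    rwa [e] at this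
  rw [inner_sub_right, sub_eq_zero]
  conv_rhs => rw [← inv_inv g, ← hα.inner_left, inv_inv]
  rw [← P_inner, hα.P_eq_self hη', hα.inner_map]

end GoodRep

end Vale.Agent.P092.H350
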