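import Vale.Agent.P092.H350.ElBasic

/-!
`SL_2(ℤ)` inside `SL_3(ℤ)`: Mennicke symbols with bounded numbers of elementary matrices.
-/

namespace Vale.Agent.P092.H350

open Matrix

abbrev M3 := Matrix (Fin 3) (Fin 3) ℤ

def m12 (a b c d : ℤ) : M3 := !![a, b, 0; c, d, 0; 0, 0, 1]
def m13 (a b c d : ℤ) : M3 := !![a, 0, b; 0, 1, 0; c, 0, d]
def m23 (a b c d : ℤ) : M3 := !![1, 0, 0; 0, a, b; 0, c, d]

theorem e01 (t : ℤ) : El 1 (!![1, t, 0; 0, 1, 0; 0, 0, 1] : M3) := by
  convert El.transvection (i := (0 : Fin 3)) (j := 1) (by decide) t using 1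
  ext i j; fin_cases i <;> fin_cases j <;> simp [Matrix.transvection, Matrix.single]

theorem e02 (t : ℤ) : El 1 (!![1, 0, t; 0, 1, 0; 0, 0, 1] : M3) := by
  convert El.transvection (i := (0 : Fin 3)) (j := 2) (by decide) t using 1
  ext i j; fin_cases i <;> fin_cases j <;> simp [Matrix.transvection, Matrix.single]

theorem e12 (t : ℤ) : El 1 (!![1, 0, 0; 0, 1, t; 0, 0, 1] : M3) := by
  convert El.transvection (i := (1 : Fin 3)) (j := 2) (by decide) t using 1
  ext i j; fin_cases i <;> fin_cases j <;> simp [Matrix.transvection, Matrix.single]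

theorem e10 (t : ℤ) : El 1 (!![1, 0, 0; t, 1, 0; 0, 0, 1] : M3) := by
  convert El.transvection (i := (1 : Fin 3)) (j := 0) (by decide) t using 1
  ext i j; fin_cases i <;> fin_cases j <;> simp [Matrix.transvection, Matrix.single]

theorem e20 (t : ℤ) : El 1 (!![1, 0, 0; 0, 1, 0; t, 0, 1] : M3) := by
  convert El.transvection (i := (2 : Fin 3)) (j := 0) (by decide) t using 1
  ext i j; fin_cases i <;> fin_cases j <;> simp [Matrix.transvection, Matrix.single]

theorem e21 (t : ℤ) : El 1 (!![1, 0, 0; 0, 1, 0; 0, t, 1] : M3) := by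
  convert El.transvection (i := (2 : Fin 3)) (j := 1) (by decide) t using 1
  ext i j; fin_cases i <;> fin_cases j <;> simp [Matrix.transvection, Matrix.single]

theorem m12_mul (a b c d a' b' c' d' : ℤ) :
    m12 a b c d * m12 a' b' c' d' = m12 (a * a' + b * c') (a * b' + b * d') (c * a' + d * c')
      (c * b' + d * d') := by
  simp [m12, Matrix.mul_fin_three]

theorem El_rot12 : El 3 (m12 0 (-1) 1 0) := by
  have h := ((e01 (-1)).mul (e10 1)).mul (e01 (-1))
  convert h using 1
  simp [m12, Matrix.mul_fin_three]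

theorem El_rot12' : El 3 (m12 0 1 (-1) 0) := by
  have h := ((e01 1).mul (e10 (-1))).mul (e01 1)
  convert h using 1
  simp [m12, Matrix.mul_fin_three]

theorem El_rot23 : El 3 (m23 0 (-1) 1 0) := by
  have h := ((e12 (-1)).mul (e21 1)).mul (e12 (-1))
  convert h using 1
  simp [m23, Matrix.mul_fin_three]

theorem El_rot23' : El 3 (m23 0 1 (-1) 0) := by
  have h := ((e12 1).mul (e21 (-1))).mul (e12 1)
  convert h using 1
  simp [m23, Matrix.mul_fin_three]

theorem El_m13 {N : ℕ} {a b c d : ℤ} (h : El N (m12 a b c d)) : El (N + 6) (m13 a b c d) := by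
  have h := (El_rot23.mul h).mul El_rot23'
  refine (?_ : El _ _).mono (show 3 + N + 3 ≤ N + 6 by omega)
  convert h using 1
  simp [m12, m13, m23, Matrix.mul_fin_three]

theorem El_m12_of_m13 {N : ℕ} {a b c d : ℤ} (h : El N (m13 a b c d)) :
    El (N + 6) (m12 a b c d) := by
  have h := (El_rot23'.mul h).mul El_rot23
  refine (?_ : El _ _).mono (show 3 + N + 3 ≤ N + 6 by omega)
  convert h using 1
  simp [m12, m13, m23, Matrix.mul_fin_three]

theorem El_m23 {N : ℕ} {a b c d : ℤ} (h : El N (m12 a b c d)) : El (N + 12) (m23 a b c d) := by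
  have h := (El_rot12.mul (El_m13 h)).mul El_rot12'
  refine (?_ : El _ _).mono (show 3 + (N + 6) + 3 ≤ N + 12 by omega)
  convert h using 1
  simp [m12, m13, m23, Matrix.mul_fin_three]

/-- `Q N a b`: some completion of the row a, b is a short product. -/
def Q (N : ℕ) (a b : ℤ) : Prop := ∃ c d, a * d - b * c = 1 ∧ El N (m12 a b c d)

theorem Q.mono {N M : ℕ} {a b : ℤ} (h : Q N a b) (hNM : N ≤ M) : Q M a b := by
  obtain ⟨c, d, h1, h2⟩ := h
  exact ⟨c, d, h1, h2.mono hNM⟩

theorem Q.el {N : ℕ} {a b : ℤ} (h : Q N a b) {c d : ℤ} (hd : a * d - b * c = 1) :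
    El (N + 1) (m12 a b c d) := by
  obtain ⟨c', d', h1, h2⟩ := h
  refine (?_ : El _ _).mono (show 1 + N ≤ N + 1 by omega)
  convert (e10 (c * d' - d * c')).mul h2 using 1
  have e1 : c = (c * d' - d * c') * a + c' := by linear_combination c' * hd - c * h1
  have e2 : d = (c * d' - d * c') * b + d' := by linear_combination d' * hd - d * h1
  simp only [m12, Matrix.mul_fin_three]
  simp
  exact ⟨e1, e2⟩

theorem Q.addb {N : ℕ} {a b : ℤ} (h : Q N a b) (t : ℤ) : Q (N + 1) a (b + t * a) := by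
  obtain ⟨c, d, h1, h2⟩ := h
  refine ⟨c, d + t * c, by linear_combination h1, ?_⟩
  convert h2.mul (e01 t) using 1
  simp only [m12, Matrix.mul_fin_three]
  simp
  exact ⟨by ring, by ring⟩

theorem Q.adda {N : ℕ} {a b : ℤ} (h : Q N a b) (t : ℤ) : Q (N + 1) (a + t * b) b := by
  obtain ⟨c, d, h1, h2⟩ := h
  refine ⟨c + t * d, d, by linear_combination h1, ?_⟩
  convert h2.mul (e10 t) using 1
  simp only [m12, Matrix.mul_fin_three]
  simp
  exact ⟨by ring, by ring⟩

theorem Q_one (b : ℤ) : Q 1 1 b := by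
  exact ⟨0, 1, by ring, e01 b⟩

theorem Q_neg_one (b : ℤ) : Q 7 (-1) b := by
  refine ⟨0, -1, by ring, ?_⟩
  have h := (El_rot12.mul El_rot12).mul (e01 (-b))
  convert h using 1
  simp only [m12, Matrix.mul_fin_three]
  simp

/-- if `a ≡ ± 1 mod b` -/
theorem Q_of_dvd {a b : ℤ} (h : b ∣ a - 1 ∨ b ∣ a + 1) : Q 8 a b := by
  rcases h with ⟨t, ht⟩ | ⟨t, ht⟩
  · have := (Q_one b).adda t
    have e : a = 1 + t * b := by linear_combination ht
    rw [e]
    exact this.mono (by omega)
  · have := (Q_neg_one b).adda t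
    have e : a = -1 + t * b := by linear_combination ht
    rw [e]
    exact this.mono (by omega)

theorem El_flip {N : ℕ} {x z r s : ℤ} (h : El N (m12 x z r s)) :
    El (N + 6) (m12 s (-r) (-z) x) := by
  have h := (El_rot12'.mul h).mul El_rot12
  refine (?_ : El _ _).mono (show 3 + N + 3 ≤ N + 6 by omega)
  convert h using 1
  simp [m12, Matrix.mul_fin_three]

/-- multiplicativity of the Mennicke symbol, with boundedly many operations -/
theorem Q.mul {N M : ℕ} {x y z : ℤ} (hy : Q N x y) (hz : Q M x z) : Q (N + M + 28) x (y * z) := by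
  obtain ⟨u, v, h1, h2⟩ := hy
  obtain ⟨r, s, h3, h4⟩ := hz
  refine ⟨-(u * r), v + s - x * v * s, by
    linear_combination (-(x * s - 1)) * h1 - y * u * h3, ?_⟩
  have h := (((((e20 (-u)).mul (El_m23 (El_flip h4))).mul (El_m13 h2)).mul (e21 z)).mul
    (e02 (-(y * s)))).mul (e12 r)
  refine (?_ : El _ _).mono (show 1 + (M + 6 + 12) + (N + 6) + 1 + 1 + 1 ≤ N + M + 28 by omega)
  convert h using 1
  simp only [m12, m13, m23, Matrix.mul_fin_three]
  congr 1
  funext i j
  fin_cases i <;> fin_cases j <;> simp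
  · linear_combination y * h3
  · ring
  · linear_combination (-v) * h3
  · linear_combination r * s * h1 - r * v * h3
  · ring
  · linear_combination (-z) * h1
  · linear_combination (-(z * r + 1)) * h1

/-- transposition -/
theorem El_transpose12 {N : ℕ} {a b c d : ℤ} (h : El N (m12 a b c d)) : El N (m12 a c b d) := by
  convert h.transpose using 1
  ext i j; fin_cases i <;> fin_cases j <;> simp [m12]

/-- powers by Cayley-Hamilton -/
theorem pow_form {a b c d : ℤ} (hd : a * d - b * c = 1) (k : ℕ) :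
    ∃ f g : ℤ, m12 a b c d ^ k = m12 (f + g * a) (g * b) (g * c) (f + g * d) ∧
      f ^ 2 + f * g * (a + d) + g ^ 2 = 1 ∧ b ∣ (f + g * a) - a ^ k := by
  induction k with
  | zero =>
    refine ⟨1, 0, ?_, by ring, by simp⟩
    ext i j; fin_cases i <;> fin_cases j <;> simp [m12]
  | succ k ih =>
    obtain ⟨f, g, h1, h2, t, h3⟩ := ih
    refine ⟨-g, f + g * (a + d), ?_, by linear_combination h2, ?_⟩
    · rw [pow_succ, h1, m12_mul]
      congr 1
      · linear_combination (-g) * hd
      · ring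
      · ring
      · linear_combination (-g) * hd
    · refine ⟨a * t + g * c, ?_⟩
      rw [pow_succ]
      linear_combination a * h3 + g * hd

theorem det_of_pow {a b c d : ℤ} {f g : ℤ} (hd : a * d - b * c = 1)
    (h2 : f ^ 2 + f * g * (a + d) + g ^ 2 = 1) :
    (f + g * a) * (f + g * d) - g * b * (g * c) = 1 := by
  linear_combination h2 + g ^ 2 * hd

/-- the basic estimate: `A ^ k` is a short product as soon as `a ^ k ≡ ± 1 mod b`. -/
theorem El_pow {a b c d : ℤ} (hd : a * d - b * c = 1) (k : ℕ)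
    (hk : b ∣ a ^ k - 1 ∨ b ∣ a ^ k + 1) : El 81 (m12 a b c d ^ k) := by
  obtain ⟨f, g, h1, h2, h3⟩ := pow_form hd k
  have hdet := det_of_pow hd h2
  rw [h1]
  by_cases hg : g = 0
  · subst hg
    simp only [zero_mul, add_zero]
    have hf : f * f = 1 := by linear_combination h2
    rcases mul_self_eq_one_iff.mp hf with rfl | rfl
    · have := El.one (ι := Fin 3) 81
      convert this using 1
      ext i j; fin_cases i <;> fin_cases j <;> simp [m12]
    · refine (?_ : El _ _).mono (show 3 + 3 ≤ 81 by omega)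
      convert El_rot12.mul El_rot12 using 1
      simp [m12]
  · -- Q for b
    have hb : Q 8 (f + g * a) b := by
      apply Q_of_dvd
      rcases hk with hk | hk
      · left
        have e : f + g * a - 1 = (f + g * a - a ^ k) + (a ^ k - 1) := by ring
        rw [e]; exact dvd_add h3 hk
      · right
        have e : f + g * a + 1 = (f + g * a - a ^ k) + (a ^ k + 1) := by ring
        rw [e]; exact dvd_add h3 hk
    have hprod : g ∣ (f + 1) * (f - 1) := ⟨-(f * (a + d) + g), by linear_combination h2⟩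
    let g1 : ℤ := (Int.gcd (f + 1) g : ℤ)
    have hg1 : g1 ≠ 0 := by
      intro h0
      have : Int.gcd (f + 1) g = 0 := Int.natCast_eq_zero.mp h0
      rw [Int.gcd_eq_zero_iff] at this
      exact hg this.2
    obtain ⟨f', hf'⟩ : g1 ∣ f + 1 := Int.gcd_dvd_left _ _
    obtain ⟨g2, hg2⟩ : g1 ∣ g := Int.gcd_dvd_right _ _
    have hcop : IsCoprime g2 f' := by
      rw [Int.isCoprime_iff_gcd_eq_one]
      have h5 : Int.gcd (g1 * f') (g1 * g2) = Int.gcd (f + 1) g := by rw [← hf', ← hg2]
      rw [Int.gcd_mul_left] at h5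
      have h6 : g1.natAbs = Int.gcd (f + 1) g := Int.natAbs_natCast _
      have h7 : Int.gcd (f + 1) g ≠ 0 := by
        intro h0; apply hg1; show ((Int.gcd (f + 1) g : ℕ) : ℤ) = 0; rw [h0]; rfl
      rw [h6] at h5
      rw [Int.gcd_comm]
      exact Nat.eq_of_mul_eq_mul_left (Nat.pos_of_ne_zero h7) (by rw [h5, mul_one])
    have hg2d : g2 ∣ f - 1 := by
      apply hcop.dvd_of_dvd_mul_left
      have : g1 * g2 ∣ g1 * (f' * (f - 1)) := by
        rw [← hg2, ← mul_assoc, ← hf']; exact hprod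
      exact Int.dvd_of_mul_dvd_mul_left hg1 this
    have hQ1 : Q 8 (f + g * a) g1 := by
      apply Q_of_dvd
      right
      have e : f + g * a + 1 = (f + 1) + g * a := by ring
      rw [e]
      exact dvd_add ⟨f', hf'⟩ (Dvd.dvd.mul_right (Dvd.intro _ hg2.symm) a)
    have hQ2 : Q 8 (f + g * a) g2 := by
      apply Q_of_dvd
      left
      have e : f + g * a - 1 = (f - 1) + g * a := by ring
      rw [e]
      exact dvd_add hg2d (Dvd.dvd.mul_right (Dvd.intro_left _ hg2.symm) a)
    have hQ := hQ1.mul (hQ2.mul hb)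
    have e : g1 * (g2 * b) = g * b := by rw [← mul_assoc, ← hg2]
    rw [e] at hQ
    exact (hQ.el hdet).mono (by omega)

/-- the transposed estimate -/
theorem El_pow' {a b c d : ℤ} (hd : a * d - b * c = 1) (k : ℕ)
    (hk : c ∣ a ^ k - 1 ∨ c ∣ a ^ k + 1) : El 81 (m12 a b c d ^ k) := by
  have h := (El_pow (a := a) (b := c) (c := b) (d := d) (by linear_combination hd) k hk).transpose
  rw [Matrix.transpose_pow] at h
  convert h using 2
  ext i j; fin_cases i <;> fin_cases j <;> simp [m12]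

theorem dvd_pow_mul {a b : ℤ} {k : ℕ} (hk : b ∣ a ^ k - 1 ∨ b ∣ a ^ k + 1) (s : ℕ) :
    b ∣ a ^ (s * k) - 1 ∨ b ∣ a ^ (s * k) + 1 := by
  rw [mul_comm, pow_mul]
  rcases hk with hk | hk
  · left
    exact hk.trans (by simpa using sub_dvd_pow_sub_pow (a ^ k) 1 s)
  · have h : b ∣ (a ^ k) ^ s - (-1) ^ s :=
      (by simpa using hk : b ∣ a ^ k - (-1)).trans (sub_dvd_pow_sub_pow (a ^ k) (-1) s)
    rcases neg_one_pow_eq_or ℤ s with hs | hs
    · left; rwa [hs] at h
    · right; rw [hs] at h; simpa using h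

/-- coprime exponents -/
theorem El_of_coprime {a b c d : ℤ} (hd : a * d - b * c = 1) {k l : ℕ} (hk0 : 0 < k) (hl0 : 0 < l)
    (hkl : Nat.Coprime k l) (hk : b ∣ a ^ k - 1 ∨ b ∣ a ^ k + 1)
    (hl : c ∣ a ^ l - 1 ∨ c ∣ a ^ l + 1) : El 162 (m12 a b c d) := by
  -- s * k = t * l + 1
  obtain ⟨s, t, hst⟩ : ∃ s t : ℕ, s * k = t * l + 1 := by
    have h1 : IsCoprime (k : ℤ) (l : ℤ) := Nat.isCoprime_iff_coprime.mpr hkl
    obtain ⟨u, v, huv⟩ := h1
    -- s = u + n l, t = n k - v
    let n : ℤ := |u| + |v|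
    have hk0' : (1 : ℤ) ≤ k := by exact_mod_cast hk0
    have hl0' : (1 : ℤ) ≤ l := by exact_mod_cast hl0
    have hn : 0 ≤ n := by positivity
    have hs : 0 ≤ u + n * l := by
      have : n ≤ n * l := le_mul_of_one_le_right hn hl0'
      have := neg_abs_le u
      have := abs_nonneg v
      show 0 ≤ u + n * l
      simp only [n] at *
      linarith
    have ht : 0 ≤ n * k - v := by
      have : n ≤ n * k := le_mul_of_one_le_right hn hk0'
      have := le_abs_self v
      have := abs_nonneg u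
      simp only [n] at *
      linarith
    refine ⟨(u + n * l).toNat, (n * k - v).toNat, ?_⟩
    zify
    rw [Int.toNat_of_nonneg hs, Int.toNat_of_nonneg ht]
    linear_combination huv
  have h1 := El_pow hd (s * k) (dvd_pow_mul hk s)
  have h2 := El_pow' hd (t * l) (dvd_pow_mul hl t)
  rw [hst, pow_succ] at h1
  exact (El.of_mul_left h2 h1).mono (by omega)

end Vale.Agent.P092.H350
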