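import Vale.Agent.P092.H160.Defs

/-!
Tight sets of vectors in `ℓ²(X)`: sets which are uniformly approximated by vectors supported on a
bounded number of points.
-/

namespace Vale.Agent.P092.H350

open Vale.Agent.P092.H160
open scoped InnerProductSpace

/-- A set of vectors of `ℓ²(X)` is tight if for every `ε > 0` there is `N` such that every vector
of the set is within `ε` of a vector supported on at most `N` points. -/
def Tight {X : Type} (S : Set (Ell2 X)) : Prop :=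
  ∀ ε > (0 : ℝ), ∃ N : ℕ, ∀ ξ ∈ S, ∃ (F : Finset X) (η : Ell2 X), F.card ≤ N ∧
    (∀ x, x ∉ F → (η x : ℂ) = 0) ∧ ‖ξ - η‖ ≤ ε

theorem dl_apply {X : Type} [DecidableEq X] (x y : X) :
    ((dl x : Ell2 X) y : ℂ) = if y = x then 1 else 0 := by
  by_cases h : y = x
  · subst h; simp [dl]
  · simp [dl, h]

theorem norm_dl {X : Type} (x : X) : ‖(dl x : Ell2 X)‖ = 1 := by
  classical
  rw [dl, lp.norm_single (by norm_num)]
  simp

theorem inner_dl {X : Type} (x : X) (ξ : Ell2 X) : ⟪(dl x : Ell2 X), ξ⟫_ℂ = ξ x := by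
  classical
  rw [dl, lp.inner_single_left]
  simp

theorem inner_dl_right {X : Type} (x : X) (ξ : Ell2 X) :
    ⟪ξ, (dl x : Ell2 X)⟫_ℂ = starRingEnd ℂ (ξ x) := by
  rw [← inner_conj_symm, inner_dl]

theorem hasSum_dl {X : Type} (ξ : Ell2 X) : HasSum (fun x => (ξ x : ℂ) • (dl x : Ell2 X)) ξ := by
  classical
  have h := lp.hasSum_single (E := fun _ : X => ℂ) (p := 2) (by norm_num) ξ
  convert h using 2 with x
  rw [dl]
  ext y
  rw [lp.coeFn_smul, Pi.smul_apply, lp.single_apply, lp.single_apply]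
  by_cases h : y = x
  · subst h; simp
  · simp [h]

/-- A vector supported on a finite set is a finite combination of basis vectors. -/
theorem eq_sum_dl {X : Type} (η : Ell2 X) (F : Finset X) (h : ∀ x, x ∉ F → (η x : ℂ) = 0) :
    η = ∑ x ∈ F, (η x : ℂ) • (dl x : Ell2 X) := by
  have h1 := hasSum_dl η
  have h2 : HasSum (fun x => (η x : ℂ) • (dl x : Ell2 X)) (∑ x ∈ F, (η x : ℂ) • (dl x : Ell2 X)) :=
    hasSum_sum_of_ne_finset_zero (fun x hx => by rw [h x hx, zero_smul])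
  exact h1.unique h2

theorem norm_coe_le {X : Type} (η : Ell2 X) (x : X) : ‖(η x : ℂ)‖ ≤ ‖η‖ :=
  lp.norm_apply_le_norm (by norm_num) η x

theorem Tight.mono {X : Type} {S T : Set (Ell2 X)} (h : S ⊆ T) (hT : Tight T) : Tight S := by
  intro ε hε
  obtain ⟨N, hN⟩ := hT ε hε
  exact ⟨N, fun ξ hξ => hN ξ (h hξ)⟩

theorem tight_empty {X : Type} : Tight (∅ : Set (Ell2 X)) :=
  fun _ _ => ⟨0, fun _ h => absurd h (Set.notMem_empty _)⟩

theorem tight_singleton {X : Type} (ξ : Ell2 X) : Tight {ξ} := by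
  classical
  intro ε hε
  have h := hasSum_dl ξ
  rw [HasSum, SummationFilter.unconditional_filter, Metric.tendsto_atTop] at h
  obtain ⟨F, hF⟩ := h ε hε
  refine ⟨F.card, fun η hη => ?_⟩
  rw [Set.mem_singleton_iff] at hη
  subst hη
  refine ⟨F, ∑ x ∈ F, (η x : ℂ) • (dl x : Ell2 X), le_refl _, ?_, ?_⟩
  · intro x hx
    rw [lp.coeFn_sum, Finset.sum_apply]
    refine Finset.sum_eq_zero (fun y hy => ?_)
    have hxy : x ≠ y := by rintro rfl; exact hx hy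
    rw [lp.coeFn_smul, Pi.smul_apply, dl_apply, if_neg hxy, smul_zero]
  · have := hF F (le_refl _)
    rw [dist_eq_norm, norm_sub_rev] at this
    exact this.le

theorem Tight.union {X : Type} {S T : Set (Ell2 X)} (hS : Tight S) (hT : Tight T) :
    Tight (S ∪ T) := by
  intro ε hε
  obtain ⟨N, hN⟩ := hS ε hε
  obtain ⟨M, hM⟩ := hT ε hε
  refine ⟨max N M, fun ξ hξ => ?_⟩
  rcases hξ with hξ | hξ
  · obtain ⟨F, η, h1, h2, h3⟩ := hN ξ hξ
    exact ⟨F, η, h1.trans (le_max_left _ _), h2, h3⟩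
  · obtain ⟨F, η, h1, h2, h3⟩ := hM ξ hξ
    exact ⟨F, η, h1.trans (le_max_right _ _), h2, h3⟩

theorem tight_iUnion {ι : Type*} {X : Type} [Finite ι] (S : ι → Set (Ell2 X))
    (h : ∀ i, Tight (S i)) : Tight (⋃ i, S i) := by
  intro ε hε
  choose N hN using fun i => h i ε hε
  cases nonempty_fintype ι
  refine ⟨∑ i, N i, fun ξ hξ => ?_⟩
  obtain ⟨i, hi⟩ := Set.mem_iUnion.mp hξ
  obtain ⟨F, η, h1, h2, h3⟩ := hN i ξ hi
  exact ⟨F, η, h1.trans (Finset.single_le_sum (f := N) (fun j _ => Nat.zero_le _)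
    (Finset.mem_univ i)), h2, h3⟩

theorem tight_of_finite {X : Type} {S : Set (Ell2 X)} (hS : S.Finite) : Tight S := by
  induction S, hS using Set.Finite.induction_on with
  | empty => exact tight_empty
  | insert _ _ ih => exact (tight_singleton _).union ih

/-- Sums of tight families. -/
theorem Tight.add {X : Type} {S T U : Set (Ell2 X)} (hS : Tight S) (hT : Tight T)
    (hU : ∀ ζ ∈ U, ∃ ξ ∈ S, ∃ η ∈ T, ζ = ξ + η) : Tight U := by
  classical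
  intro ε hε
  obtain ⟨N, hN⟩ := hS (ε / 2) (by positivity)
  obtain ⟨M, hM⟩ := hT (ε / 2) (by positivity)
  refine ⟨N + M, fun ζ hζ => ?_⟩
  obtain ⟨ξ, hξ, η, hη, rfl⟩ := hU ζ hζ
  obtain ⟨F, ξ', h1, h2, h3⟩ := hN ξ hξ
  obtain ⟨G, η', g1, g2, g3⟩ := hM η hη
  refine ⟨F ∪ G, ξ' + η', (Finset.card_union_le _ _).trans (add_le_add h1 g1), ?_, ?_⟩
  · intro x hx
    rw [Finset.mem_union, not_or] at hx
    rw [lp.coeFn_add, Pi.add_apply, h2 x hx.1, g2 x hx.2, add_zero]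
  · calc ‖ξ + η - (ξ' + η')‖ = ‖(ξ - ξ') + (η - η')‖ := by congr 1; abel
      _ ≤ ‖ξ - ξ'‖ + ‖η - η'‖ := norm_add_le _ _
      _ ≤ ε / 2 + ε / 2 := add_le_add h3 g3
      _ = ε := by ring

theorem Tight.smul {X : Type} {S U : Set (Ell2 X)} (hS : Tight S) (c : ℂ)
    (hU : ∀ ζ ∈ U, ∃ ξ ∈ S, ζ = c • ξ) : Tight U := by
  intro ε hε
  obtain ⟨N, hN⟩ := hS (ε / (‖c‖ + 1)) (by positivity)
  refine ⟨N, fun ζ hζ => ?_⟩
  obtain ⟨ξ, hξ, rfl⟩ := hU ζ hζ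
  obtain ⟨F, ξ', h1, h2, h3⟩ := hN ξ hξ
  refine ⟨F, c • ξ', h1, ?_, ?_⟩
  · intro x hx
    rw [lp.coeFn_smul, Pi.smul_apply, h2 x hx, smul_zero]
  · rw [← smul_sub, norm_smul]
    calc ‖c‖ * ‖ξ - ξ'‖ ≤ ‖c‖ * (ε / (‖c‖ + 1)) := by gcongr
      _ ≤ (‖c‖ + 1) * (ε / (‖c‖ + 1)) := by gcongr; linarith
      _ = ε := by field_simp

/-- Uniform limits of tight families. -/
theorem tight_of_approx {X : Type} {S : Set (Ell2 X)}
    (h : ∀ ε > (0 : ℝ), ∃ T : Set (Ell2 X), Tight T ∧ ∀ ξ ∈ S, ∃ η ∈ T, ‖ξ - η‖ ≤ ε) :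
    Tight S := by
  intro ε hε
  obtain ⟨T, hT, hST⟩ := h (ε / 2) (by positivity)
  obtain ⟨N, hN⟩ := hT (ε / 2) (by positivity)
  refine ⟨N, fun ξ hξ => ?_⟩
  obtain ⟨η, hη, h1⟩ := hST ξ hξ
  obtain ⟨F, ζ, h2, h3, h4⟩ := hN η hη
  refine ⟨F, ζ, h2, h3, ?_⟩
  calc ‖ξ - ζ‖ = ‖(ξ - η) + (η - ζ)‖ := by congr 1; abel
    _ ≤ ‖ξ - η‖ + ‖η - ζ‖ := norm_add_le _ _
    _ ≤ ε / 2 + ε / 2 := add_le_add h1 h4
    _ = ε := by ring

/-! ### Right translations -/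

section Group

variable {G : Type} [Group G]

/-- Right translation: rt s ξ (h) = ξ (h s⁻¹). -/
noncomputable def rt (s : G) : Ell2 G →L[ℂ] Ell2 G := rei (Equiv.mulRight s)

@[simp] theorem rt_apply (s : G) (ξ : Ell2 G) (h : G) : (rt s ξ h : ℂ) = ξ (h * s⁻¹) := rfl

theorem rt_dl (s t : G) : rt s (dl t) = dl (t * s) := by
  classical
  ext h
  rw [rt_apply, dl_apply, dl_apply]
  by_cases h' : h = t * s
  · subst h'; simp
  · rw [if_neg h', if_neg]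
    intro e
    exact h' (by rw [← e]; group)

/-- The operators which commute with all right translations. -/
def RC (T : Ell2 G →L[ℂ] Ell2 G) : Prop := ∀ (s : G) (ξ : Ell2 G), T (rt s ξ) = rt s (T ξ)

theorem RC.apply_dl {T : Ell2 G →L[ℂ] Ell2 G} (hT : RC T) (s : G) :
    T (dl s) = rt s (T (dl 1)) := by
  rw [← hT, rt_dl, one_mul]

theorem norm_rt (s : G) (ξ : Ell2 G) : ‖rt s ξ‖ = ‖ξ‖ := by
  rw [lp.norm_eq_tsum_rpow (by norm_num), lp.norm_eq_tsum_rpow (by norm_num)]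
  congr 1
  exact Equiv.tsum_eq (Equiv.mulRight s).symm (fun h => ‖ξ h‖ ^ (ENNReal.toReal 2))

/-- Tight families of operators map tight families to tight families. -/
theorem Tight.op {B : Set (Ell2 G →L[ℂ] Ell2 G)} (hR : ∀ b ∈ B, RC b) {C : ℝ}
    (hC : ∀ b ∈ B, ‖b‖ ≤ C) (hB : Tight ((fun b : Ell2 G →L[ℂ] Ell2 G => b (dl 1)) '' B))
    {S : Set (Ell2 G)} {M : ℝ} (hM : ∀ ξ ∈ S, ‖ξ‖ ≤ M) (hS : Tight S)
    {U : Set (Ell2 G)} (hU : ∀ ζ ∈ U, ∃ b ∈ B, ∃ ξ ∈ S, ζ = b ξ) : Tight U := by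
  classical
  intro ε hε
  have hC' : 0 < max C 0 + 1 := by positivity
  set ε₁ : ℝ := ε / (2 * (max C 0 + 1)) with hε₁
  have hε₁0 : 0 < ε₁ := by positivity
  obtain ⟨N, hN⟩ := hS ε₁ hε₁0
  set K : ℝ := max M 0 + ε₁ with hK
  have hK0 : 0 < K := by positivity
  set ε₂ : ℝ := ε / (2 * ((N + 1) * K)) with hε₂
  have hε₂0 : 0 < ε₂ := by positivity
  obtain ⟨N₂, hN₂⟩ := hB ε₂ hε₂0
  refine ⟨N * N₂, fun ζ hζ => ?_⟩
  obtain ⟨b, hb, ξ, hξ, rfl⟩ := hU ζ hζ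
  obtain ⟨F, η, h1, h2, h3⟩ := hN ξ hξ
  obtain ⟨E, v, g1, g2, g3⟩ := hN₂ (b (dl 1)) ⟨b, hb, rfl⟩
  have hη : ‖η‖ ≤ K := by
    calc ‖η‖ = ‖ξ - (ξ - η)‖ := by congr 1; abel
      _ ≤ ‖ξ‖ + ‖ξ - η‖ := norm_sub_le _ _
      _ ≤ max M 0 + ε₁ := add_le_add ((hM ξ hξ).trans (le_max_left _ _)) h3
  refine ⟨F.biUnion (fun x => E.image (fun y => y * x)),
    ∑ x ∈ F, (η x : ℂ) • rt x v, ?_, ?_, ?_⟩
  · calc (F.biUnion (fun x => E.image (fun y => y * x))).card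
        ≤ ∑ x ∈ F, (E.image (fun y => y * x)).card := Finset.card_biUnion_le
      _ ≤ ∑ _x ∈ F, N₂ := Finset.sum_le_sum (fun x _ => Finset.card_image_le.trans g1)
      _ = F.card * N₂ := by rw [Finset.sum_const, smul_eq_mul]
      _ ≤ N * N₂ := Nat.mul_le_mul_right _ h1
  · intro y hy
    rw [lp.coeFn_sum, Finset.sum_apply]
    refine Finset.sum_eq_zero (fun x hx => ?_)
    rw [lp.coeFn_smul, Pi.smul_apply, rt_apply, g2, smul_zero]
    intro hE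
    apply hy
    rw [Finset.mem_biUnion]
    exact ⟨x, hx, Finset.mem_image.mpr ⟨_, hE, by group⟩⟩
  · have e1 : b η = ∑ x ∈ F, (η x : ℂ) • rt x (b (dl 1)) := by
      conv_lhs => rw [eq_sum_dl η F h2]
      rw [map_sum]
      exact Finset.sum_congr rfl (fun x _ => by rw [map_smul, (hR b hb).apply_dl])
    have e2 : ‖b η - ∑ x ∈ F, (η x : ℂ) • rt x v‖ ≤ ε / 2 := by
      rw [e1, ← Finset.sum_sub_distrib]
      calc ‖∑ x ∈ F, ((η x : ℂ) • rt x (b (dl 1)) - (η x : ℂ) • rt x v)‖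
          ≤ ∑ x ∈ F, ‖(η x : ℂ) • rt x (b (dl 1)) - (η x : ℂ) • rt x v‖ := norm_sum_le _ _
        _ ≤ ∑ _x ∈ F, K * ε₂ := Finset.sum_le_sum (fun x _ => by
            rw [← smul_sub, ← map_sub, norm_smul, norm_rt]
            exact mul_le_mul ((norm_coe_le η x).trans hη) g3 (norm_nonneg _) hK0.le)
        _ = F.card * (K * ε₂) := by rw [Finset.sum_const, nsmul_eq_mul]
        _ ≤ (N + 1) * (K * ε₂) := by
            have : (F.card : ℝ) ≤ N := by exact_mod_cast h1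
            gcongr
            linarith
        _ = ε / 2 := by rw [hε₂]; field_simp
    have e3 : ‖b (ξ - η)‖ ≤ ε / 2 := by
      calc ‖b (ξ - η)‖ ≤ ‖b‖ * ‖ξ - η‖ := b.le_opNorm _
        _ ≤ (max C 0 + 1) * ε₁ := by
            have := (hC b hb).trans (le_max_left C 0)
            gcongr
            linarith
        _ = ε / 2 := by rw [hε₁]; field_simp
    calc ‖b ξ - ∑ x ∈ F, (η x : ℂ) • rt x v‖
        = ‖b (ξ - η) + (b η - ∑ x ∈ F, (η x : ℂ) • rt x v)‖ := by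
          rw [map_sub]; congr 1; abel
      _ ≤ ‖b (ξ - η)‖ + ‖b η - ∑ x ∈ F, (η x : ℂ) • rt x v‖ := norm_add_le _ _
      _ ≤ ε / 2 + ε / 2 := add_le_add e3 e2
      _ = ε := by ring

end Group

end Vale.Agent.P092.H350
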